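import Vale.Agent.P246.R3.H675.Cone

/-! # P246.FreeFactor: base change of homotopy equivalences along a ring homomorphism -/

namespace Vale.Agent.P246.H675

variable {S R : Type} [Ring S] [Ring R]

/-- a free `S`-module `X` and the free `R`-module `X'` with the same basis -/
structure BC (φ : S →+* R) (X X' : Type) [AddCommGroup X] [Module S X] [AddCommGroup X']
    [Module R X'] where
  I : Type
  fI : Fintype I
  b : Module.Basis I S X
  b' : Module.Basis I R X'
  th : X →+ X'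
  th_smul : ∀ s x, th (s • x) = φ s • th x
  th_b : ∀ i, th (b i) = b' i

variable {φ : S →+* R} {X X' Y Y' Z Z' : Type} [AddCommGroup X] [Module S X] [AddCommGroup X']
    [Module R X'] [AddCommGroup Y] [Module S Y] [AddCommGroup Y'] [Module R Y']
    [AddCommGroup Z] [Module S Z] [AddCommGroup Z'] [Module R Z']

/-- base change of a linear map -/
noncomputable def bc (A : BC φ X X') (B : BC φ Y Y') (M : X →ₗ[S] Y) : X' →ₗ[R] Y' :=
  A.b'.constr ℕ fun i => B.th (M (A.b i))

theorem bc_b (A : BC φ X X') (B : BC φ Y Y') (M : X →ₗ[S] Y) (i : A.I) :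
    bc A B M (A.b' i) = B.th (M (A.b i)) := A.b'.constr_basis ℕ _ i

theorem bc_th (A : BC φ X X') (B : BC φ Y Y') (M : X →ₗ[S] Y) (x : X) :
    bc A B M (A.th x) = B.th (M x) := by
  have := A.fI
  rw [← A.b.sum_repr x, map_sum, map_sum, map_sum, map_sum]
  refine Finset.sum_congr rfl fun i _ => ?_
  rw [A.th_smul, map_smul, A.th_b, bc_b, map_smul, B.th_smul]

theorem bc_ext (A : BC φ X X') {M N : X' →ₗ[R] Y'} (h : ∀ i, M (A.th (A.b i)) = N (A.th (A.b i))) :
    M = N := by
  refine A.b'.ext fun i => ?_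
  rw [← A.th_b]
  exact h i

theorem bc_comp (A : BC φ X X') (B : BC φ Y Y') (C : BC φ Z Z') (M : X →ₗ[S] Y)
    (N : Y →ₗ[S] Z) : bc A C (N ∘ₗ M) = bc B C N ∘ₗ bc A B M := by
  refine bc_ext A fun i => ?_
  rw [bc_th, LinearMap.comp_apply, LinearMap.comp_apply, bc_th, bc_th]

theorem bc_add (A : BC φ X X') (B : BC φ Y Y') (M N : X →ₗ[S] Y) :
    bc A B (M + N) = bc A B M + bc A B N := by
  refine bc_ext A fun i => ?_
  rw [bc_th, LinearMap.add_apply, LinearMap.add_apply, bc_th, bc_th, map_add]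

theorem bc_id (A : BC φ X X') : bc A A LinearMap.id = LinearMap.id := by
  refine bc_ext A fun i => ?_
  rw [bc_th, LinearMap.id_apply, LinearMap.id_apply]

variable {F0 F1 F2 D0 D1 D2 : Type} [AddCommGroup F0] [AddCommGroup F1]
    [AddCommGroup F2] [AddCommGroup D0] [AddCommGroup D1] [AddCommGroup D2] [Module S F0]
    [Module S F1] [Module S F2] [Module S D0] [Module S D1] [Module S D2]
    {F0' F1' F2' D0' D1' D2' : Type} [AddCommGroup F0'] [AddCommGroup F1']
    [AddCommGroup F2'] [AddCommGroup D0'] [AddCommGroup D1'] [AddCommGroup D2'] [Module R F0']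
    [Module R F1'] [Module R F2'] [Module R D0'] [Module R D1'] [Module R D2']

/-- base change of a homotopy equivalence -/
noncomputable def HE.bc {p1 : F1 →ₗ[S] F0} {p2 : F2 →ₗ[S] F1} {q1 : D1 →ₗ[S] D0}
    {q2 : D2 →ₗ[S] D1} (E : HE S p1 p2 q1 q2) (A0 : BC φ F0 F0') (A1 : BC φ F1 F1')
    (A2 : BC φ F2 F2') (B0 : BC φ D0 D0') (B1 : BC φ D1 D1') (B2 : BC φ D2 D2') :
    HE R (H675.bc A1 A0 p1) (H675.bc A2 A1 p2) (H675.bc B1 B0 q1) (H675.bc B2 B1 q2) where
  f0 := H675.bc A0 B0 E.f0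
  f1 := H675.bc A1 B1 E.f1
  f2 := H675.bc A2 B2 E.f2
  g0 := H675.bc B0 A0 E.g0
  g1 := H675.bc B1 A1 E.g1
  g2 := H675.bc B2 A2 E.g2
  k0 := H675.bc A0 A1 E.k0
  k1 := H675.bc A1 A2 E.k1
  h0 := H675.bc B0 B1 E.h0
  h1 := H675.bc B1 B2 E.h1
  fc1 := by rw [← bc_comp, ← bc_comp, E.fc1]
  fc2 := by rw [← bc_comp, ← bc_comp, E.fc2]
  gc1 := by rw [← bc_comp, ← bc_comp, E.gc1]
  gc2 := by rw [← bc_comp, ← bc_comp, E.gc2]
  eK0 := by rw [← bc_comp, ← bc_comp, E.eK0, bc_add, bc_id]
  eK1 := by rw [← bc_comp, ← bc_comp, ← bc_comp, E.eK1, bc_add, bc_add, bc_id]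
  eK2 := by rw [← bc_comp, ← bc_comp, E.eK2, bc_add, bc_id]
  eH0 := by rw [← bc_comp, ← bc_comp, E.eH0, bc_add, bc_id]
  eH1 := by rw [← bc_comp, ← bc_comp, ← bc_comp, E.eH1, bc_add, bc_add, bc_id]
  eH2 := by rw [← bc_comp, ← bc_comp, E.eH2, bc_add, bc_id]

/-- the ring itself -/
noncomputable def BC.one (φ : S →+* R) : BC φ S R where
  I := Unit
  fI := inferInstance
  b := Module.Basis.singleton Unit S
  b' := Module.Basis.singleton Unit R
  th := φ.toAddMonoidHom
  th_smul s x := map_mul φ s x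
  th_b i := by simp

/-- `S^m` and `R^m` -/
noncomputable def BC.pi (φ : S →+* R) (m : ℕ) : BC φ (Fin m → S) (Fin m → R) where
  I := Fin m
  fI := inferInstance
  b := Pi.basisFun S (Fin m)
  b' := Pi.basisFun R (Fin m)
  th := AddMonoidHom.mk' (fun x i => φ (x i)) (fun x y => by ext1 i; exact map_add φ _ _)
  th_smul s x := by ext1 i; exact map_mul φ s (x i)
  th_b i := by
    classical
    ext1 j
    simp only [Pi.basisFun_apply, AddMonoidHom.mk'_apply]
    by_cases h : j = i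
    · subst h; simp
    · simp [Pi.single_eq_of_ne h]

/-- products -/
noncomputable def BC.prod (A : BC φ X X') (B : BC φ Y Y') : BC φ (X × Y) (X' × Y') where
  I := A.I ⊕ B.I
  fI := by
    have := A.fI
    have := B.fI
    infer_instance
  b := A.b.prod B.b
  b' := A.b'.prod B.b'
  th := AddMonoidHom.prodMap A.th B.th
  th_smul s x := by
    ext1
    · exact A.th_smul s x.1
    · exact B.th_smul s x.2
  th_b i := by
    rcases i with i | i
    · ext1
      · simp [A.th_b]
      · simp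
    · ext1
      · simp
      · simp [B.th_b]

end Vale.Agent.P246.H675
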