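import Vale.Agent.P246.R3.H675.Ind

/-! # P246.FreeFactor: the final chain argument over `ℤ[G]` -/

namespace Vale.Agent.P246.H675

/-- a chain homotopy equivalence of three-term complexes `F₂ → F₁ → F₀` and `D₂ → D₁ → D₀` -/
structure HE (R : Type) [Ring R] {F0 F1 F2 D0 D1 D2 : Type} [AddCommGroup F0] [AddCommGroup F1]
    [AddCommGroup F2] [AddCommGroup D0] [AddCommGroup D1] [AddCommGroup D2] [Module R F0]
    [Module R F1] [Module R F2] [Module R D0] [Module R D1] [Module R D2]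
    (p1 : F1 →ₗ[R] F0) (p2 : F2 →ₗ[R] F1) (q1 : D1 →ₗ[R] D0) (q2 : D2 →ₗ[R] D1) where
  f0 : F0 →ₗ[R] D0
  f1 : F1 →ₗ[R] D1
  f2 : F2 →ₗ[R] D2
  g0 : D0 →ₗ[R] F0
  g1 : D1 →ₗ[R] F1
  g2 : D2 →ₗ[R] F2
  k0 : F0 →ₗ[R] F1
  k1 : F1 →ₗ[R] F2
  h0 : D0 →ₗ[R] D1
  h1 : D1 →ₗ[R] D2
  fc1 : q1 ∘ₗ f1 = f0 ∘ₗ p1
  fc2 : q2 ∘ₗ f2 = f1 ∘ₗ p2
  gc1 : p1 ∘ₗ g1 = g0 ∘ₗ q1
  gc2 : p2 ∘ₗ g2 = g1 ∘ₗ q2
  eK0 : g0 ∘ₗ f0 = LinearMap.id + p1 ∘ₗ k0
  eK1 : g1 ∘ₗ f1 = LinearMap.id + p2 ∘ₗ k1 + k0 ∘ₗ p1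
  eK2 : g2 ∘ₗ f2 = LinearMap.id + k1 ∘ₗ p2
  eH0 : f0 ∘ₗ g0 = LinearMap.id + q1 ∘ₗ h0
  eH1 : f1 ∘ₗ g1 = LinearMap.id + q2 ∘ₗ h1 + h0 ∘ₗ q1
  eH2 : f2 ∘ₗ g2 = LinearMap.id + h1 ∘ₗ q2

/-- the homological conditions for a map of three-term complexes `P → T` -/
structure QI (R : Type) [Ring R] {P0 P1 P2 T0 T1 T2 : Type} [AddCommGroup P0] [AddCommGroup P1]
    [AddCommGroup P2] [AddCommGroup T0] [AddCommGroup T1] [AddCommGroup T2] [Module R P0]
    [Module R P1] [Module R P2] [Module R T0] [Module R T1] [Module R T2]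
    (p1 : P1 →ₗ[R] P0) (p2 : P2 →ₗ[R] P1) (d1 : T1 →ₗ[R] T0) (d2 : T2 →ₗ[R] T1) where
  F0 : P0 →ₗ[R] T0
  F1 : P1 →ₗ[R] T1
  F2 : P2 →ₗ[R] T2
  c1 : ∀ u, d1 (F1 u) = F0 (p1 u)
  c2 : ∀ t, d2 (F2 t) = F1 (p2 t)
  i0 : ∀ x, (∃ y, d1 y = F0 x) → ∃ z, p1 z = x
  s0 : ∀ y, ∃ x z, y = F0 x + d1 z
  i1 : ∀ x, p1 x = 0 → ∃ z, p2 z = x
  i2 : ∀ x, p2 x = 0 → F2 x = 0 → x = 0
  s2 : ∀ y, d2 y = 0 → ∃ x, p2 x = 0 ∧ y = F2 x

section

variable {R : Type} [Ring R] {F0 F1 F2 D0 D1 D2 : Type} [AddCommGroup F0] [AddCommGroup F1]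
    [AddCommGroup F2] [AddCommGroup D0] [AddCommGroup D1] [AddCommGroup D2] [Module R F0]
    [Module R F1] [Module R F2] [Module R D0] [Module R D1] [Module R D2] {n : ℕ}

/-- **the cone argument**: cells `δ j` killed in `F` and cells `e_j` killed in `D` -/
noncomputable def cone (p1 : F1 →ₗ[R] F0) (p2 : F2 →ₗ[R] F1) (d1 : D1 →ₗ[R] D0) (d2 : D2 →ₗ[R] D1)
    (E : HE R p1 p2 (d1 ∘ₗ LinearMap.fst R D1 (Fin n → R))
      ((LinearMap.inl R D1 (Fin n → R)) ∘ₗ d2))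
    (hex : ∀ u, d1 u = 0 → ∃ v, d2 v = u)
    (δ : Fin n → F1) (hδ : ∀ j, p1 (δ j) = 0) (z : Fin n → D2) (s : ℤ) (hs : s * s = 1)
    (hz : ∀ j, E.f1 (δ j) = (d2 (z j), s • Pi.single j 1)) :
    QI R p1 (LinearMap.coprod p2 (Fintype.linearCombination R δ)) d1 d2 := by
  have e1 : ∀ l : Fin n → R, E.f1 (Fintype.linearCombination R δ l) =
      (d2 (Fintype.linearCombination R z l), s • l) := by
    intro l
    rw [Fintype.linearCombination_apply, Fintype.linearCombination_apply, map_sum, map_sum]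
    have h1 : ∀ j, E.f1 (l j • δ j) = (d2 (l j • z j), s • Pi.single j (l j)) := by
      intro j
      rw [map_smul, hz, Prod.smul_mk, map_smul]
      congr 1
      rw [smul_comm]
      congr 1
      ext1 k
      by_cases hk : k = j
      · subst hk; simp
      · simp [Pi.single_eq_of_ne hk]
    simp only [h1]
    rw [Prod.ext_iff]
    refine ⟨by simp [Prod.fst_sum], ?_⟩
    rw [Prod.snd_sum]
    simp only []
    rw [← Finset.smul_sum, Finset.univ_sum_single]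
  have fc1 : ∀ u, d1 (E.f1 u).1 = E.f0 (p1 u) := fun u => LinearMap.congr_fun E.fc1 u
  have fc2 : ∀ u, ((d2 (E.f2 u), 0) : D1 × (Fin n → R)) = E.f1 (p2 u) :=
    fun u => LinearMap.congr_fun E.fc2 u
  have gc1 : ∀ u, p1 (E.g1 u) = E.g0 (d1 u.1) := fun u => LinearMap.congr_fun E.gc1 u
  have gc2 : ∀ u, p2 (E.g2 u) = E.g1 (d2 u, 0) := fun u => LinearMap.congr_fun E.gc2 u
  have eK0 : ∀ x, E.g0 (E.f0 x) = x + p1 (E.k0 x) := fun u => LinearMap.congr_fun E.eK0 u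
  have eK1 : ∀ x, E.g1 (E.f1 x) = x + p2 (E.k1 x) + E.k0 (p1 x) :=
    fun u => LinearMap.congr_fun E.eK1 u
  have eK2 : ∀ x, E.g2 (E.f2 x) = x + E.k1 (p2 x) := fun u => LinearMap.congr_fun E.eK2 u
  have eH0 : ∀ x, E.f0 (E.g0 x) = x + d1 (E.h0 x).1 := fun u => LinearMap.congr_fun E.eH0 u
  have eH2 : ∀ x, E.f2 (E.g2 x) = x + E.h1 (d2 x, 0) := fun u => LinearMap.congr_fun E.eH2 u
  exact
  { F0 := E.f0
    F1 := (LinearMap.fst R D1 (Fin n → R)) ∘ₗ E.f1
    F2 := LinearMap.coprod E.f2 (Fintype.linearCombination R z)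
    c1 := fc1
    c2 := by
      rintro ⟨x, l⟩
      change d2 (LinearMap.coprod E.f2 (Fintype.linearCombination R z) (x, l)) =
        (E.f1 (LinearMap.coprod p2 (Fintype.linearCombination R δ) (x, l))).1
      rw [LinearMap.coprod_apply, LinearMap.coprod_apply, map_add, map_add, e1, ← fc2]
      rfl
    i0 := by
      rintro x ⟨y, hy⟩
      refine ⟨E.g1 (y, 0) - E.k0 x, ?_⟩
      rw [map_sub, gc1, hy, eK0, add_sub_cancel_right]
    s0 := by
      intro y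
      refine ⟨E.g0 y, -(E.h0 y).1, ?_⟩
      rw [eH0, map_neg, add_neg_cancel_right]
    i1 := by
      intro x hx
      have h1 := fc1 x
      rw [hx, map_zero] at h1
      obtain ⟨v, hv⟩ := hex _ h1
      let w := (E.f1 x).2
      let x' := x - Fintype.linearCombination R δ (s • w)
      have h2 : E.f1 x' = (d2 (v - Fintype.linearCombination R z (s • w)), 0) := by
        rw [map_sub, e1, map_sub, hv, smul_smul, hs, one_smul]
        ext1
        · rfl
        · exact sub_self _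
      have h3 : p1 x' = 0 := by
        rw [map_sub, hx, Fintype.linearCombination_apply, map_sum]
        simp [hδ]
      have h4 := eK1 x'
      rw [h2, h3, map_zero, add_zero, ← gc2] at h4
      refine ⟨(E.g2 (v - Fintype.linearCombination R z (s • w)) - E.k1 x', s • w), ?_⟩
      rw [LinearMap.coprod_apply, map_sub, h4, add_sub_cancel_right]
      exact sub_add_cancel _ _
    i2 := by
      rintro ⟨x, l⟩ hx h0
      rw [LinearMap.coprod_apply] at hx h0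
      have h1 := congrArg E.f1 hx
      rw [map_add, e1, ← fc2, map_zero] at h1
      have h2 : s • l = 0 := by
        have := congrArg Prod.snd h1
        change 0 + s • l = 0 at this
        rwa [zero_add] at this
      have h3 : l = 0 := by
        have := congrArg (fun t => s • t) h2
        simp only [smul_smul, hs, one_smul, smul_zero] at this
        exact this
      subst h3
      rw [map_zero, add_zero] at hx h0
      have h4 := eK2 x
      rw [hx, h0, map_zero, map_zero, add_zero] at h4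
      rw [← h4]; rfl
    s2 := by
      intro y hy
      refine ⟨(E.g2 y, 0), ?_, ?_⟩
      · rw [LinearMap.coprod_apply, map_zero, add_zero, gc2, hy]
        exact map_zero E.g1
      · rw [LinearMap.coprod_apply, map_zero, add_zero, eH2, hy]
        have : ((0, 0) : D1 × (Fin n → R)) = 0 := rfl
        rw [this, map_zero, add_zero] }

end

end Vale.Agent.P246.H675
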