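import Vale.Agent.P246.R3.H816.Defs

/-! # P246.FreeFactor, row FLAT: `ℤ[H]` is flat over `ℤ[G]` for a retract `G` of `H` -/

namespace Vale.Agent.P246.H675

open Vale.Agent.P246 Vale.Agent.P246.H816

variable {G H : Type} [Group G] [Group H]

/-- The coordinate at `ν` of an element of `ℤ[H]` over `ℤ[G]`. -/
noncomputable def co (ι : G →* H) (ρ : H →* G) (ν : H) : ZG H →+ ZG G := by
  classical
  exact (Finsupp.liftAddHom fun h : H =>
    if h * (ι (ρ h))⁻¹ = ν then MonoidAlgebra.singleAddHom (ρ h) else 0).comp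
      (MonoidAlgebra.coeffAddEquiv (R := ℤ) (M := H)).toAddMonoidHom

open Classical in
theorem co_single (ι : G →* H) (ρ : H →* G) (ν h : H) (z : ℤ) :
    co ι ρ ν (MonoidAlgebra.single h z) =
      if h * (ι (ρ h))⁻¹ = ν then MonoidAlgebra.single (ρ h) z else 0 := by
  unfold co
  simp only [AddMonoidHom.coe_comp, Function.comp_apply]
  erw [Finsupp.liftAddHom_apply_single]
  split_ifs
  · rfl
  · rfl

theorem rh_single (φ : G →* H) (g : G) (z : ℤ) :
    rh φ (MonoidAlgebra.single g z) = MonoidAlgebra.single (φ g) z := by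
  simp [rh]

theorem co_mul (ι : G →* H) (ρ : H →* G) (hρ : ∀ g, ρ (ι g) = g) (ν : H) (s : ZG H) (r : ZG G) :
    co ι ρ ν (s * rh ι r) = co ι ρ ν s * r := by
  classical
  induction s using MonoidAlgebra.induction_linear with
  | zero => simp
  | add s t hs ht => rw [add_mul, map_add, hs, ht, map_add, add_mul]
  | single h z =>
    induction r using MonoidAlgebra.induction_linear with
    | zero => simp
    | add s t hs ht => rw [map_add, mul_add, map_add, hs, ht, mul_add]
    | single g y =>
      rw [rh_single, MonoidAlgebra.single_mul_single, co_single, co_single]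
      have e : h * ι g * (ι (ρ (h * ι g)))⁻¹ = h * (ι (ρ h))⁻¹ := by
        rw [map_mul, hρ, map_mul]; group
      rw [e]
      split_ifs
      · rw [MonoidAlgebra.single_mul_single, map_mul, hρ]
      · simp

theorem exists_sum (ι : G →* H) (ρ : H →* G) (s : ZG H) :
    ∃ T₀ : Finset H, ∀ T, T₀ ⊆ T → ∑ ν ∈ T, elt ν * rh ι (co ι ρ ν s) = s := by
  classical
  induction s using MonoidAlgebra.induction_linear with
  | zero => exact ⟨∅, fun T _ => by simp⟩
  | add s t hs ht =>
    obtain ⟨A, hA⟩ := hs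
    obtain ⟨B, hB⟩ := ht
    refine ⟨A ∪ B, fun T hT => ?_⟩
    simp only [map_add, mul_add, Finset.sum_add_distrib]
    rw [hA T (Finset.union_subset_left hT), hB T (Finset.union_subset_right hT)]
  | single h z =>
    refine ⟨{h * (ι (ρ h))⁻¹}, fun T hT => ?_⟩
    rw [Finset.sum_eq_single (h * (ι (ρ h))⁻¹)]
    · rw [co_single, if_pos rfl, rh_single, elt, MonoidAlgebra.single_mul_single]
      simp
    · intro ν _ hν
      rw [co_single, if_neg (fun h => hν h.symm)]
      simp
    · intro hn
      exact absurd (hT (Finset.mem_singleton_self _)) hn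

theorem up_apply {R S : Type} [Ring R] [Ring S] (φ : R →+* S) {a b : ℕ}
    (M : (Fin a → R) →ₗ[R] (Fin b → R)) (v : Fin a → S) (k : Fin b) :
    H816.up φ M v k = ∑ i, v i * φ (M (Pi.single i 1) k) := by
  simp [H816.up, Fintype.linearCombination_apply, Finset.sum_apply]

theorem lin_apply {R : Type} [Ring R] {a b : ℕ}
    (M : (Fin a → R) →ₗ[R] (Fin b → R)) (v : Fin a → R) (k : Fin b) :
    M v k = ∑ i, v i * M (Pi.single i 1) k := by
  classical
  have h : v = ∑ i, v i • (Pi.single i (1 : R) : Fin a → R) := by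
    ext j
    simp [Finset.sum_apply, Pi.single_apply]
  conv_lhs => rw [h]
  rw [map_sum, Finset.sum_apply]
  refine Finset.sum_congr rfl fun i _ => ?_
  rw [map_smul, Pi.smul_apply, smul_eq_mul]

theorem row : SpecFLAT := by
  classical
  intro G H _ _ ι ρ hρ a b c M N hex v hv
  choose T₀ hT₀ using fun i => exists_sum ι ρ (v i)
  have h0 : ∀ ν, M (fun i => co ι ρ ν (v i)) = 0 := by
    intro ν
    ext1 k
    have h1 := congrArg (co ι ρ ν) (congrFun hv k)
    rw [up_apply, map_sum] at h1
    simp only [co_mul ι ρ hρ] at h1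
    rw [lin_apply, h1]
    simp
  choose y hy using fun ν => hex _ (h0 ν)
  let T : Finset H := Finset.univ.biUnion T₀
  refine ⟨∑ ν ∈ T, elt ν • fun k => rh ι (y ν k), ?_⟩
  rw [map_sum]
  ext1 i
  rw [Finset.sum_apply]
  rw [← hT₀ i T (Finset.subset_biUnion_of_mem T₀ (Finset.mem_univ i))]
  refine Finset.sum_congr rfl fun ν _ => ?_
  rw [map_smul, Pi.smul_apply, smul_eq_mul]
  congr 1
  rw [up_apply, ← congrFun (hy ν) i, lin_apply N (y ν) i, map_sum]
  simp only [map_mul]

end Vale.Agent.P246.H675
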