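import Vale.Agent.P246.R3.H675.Flat

/-! # P246.FreeFactor: the complex `D = Ind C + ⊕ ℤ[H] e_j` is exact in degree one and has
`H_0 = ℤ` -/

namespace Vale.Agent.P246.H675

open Vale.Agent.P246 Vale.Agent.P246.H816

section Aug

variable {G : Type} [Group G]

/-- additive extension of a function on the group -/
noncomputable def ext {A : Type} [AddCommGroup A] (f : G → A) : ZG G →+ A :=
  (Finsupp.liftAddHom fun g : G => (zmultiplesHom A (f g))).comp
    (MonoidAlgebra.coeffAddEquiv (R := ℤ) (M := G)).toAddMonoidHom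

theorem ext_single {A : Type} [AddCommGroup A] (f : G → A) (g : G) (z : ℤ) :
    ext f (MonoidAlgebra.single g z) = z • f g := by
  unfold ext
  simp only [AddMonoidHom.coe_comp, Function.comp_apply]
  erw [Finsupp.liftAddHom_apply_single]
  rfl

/-- the augmentation -/
noncomputable def aug (G : Type) [Group G] : ZG G →+ ℤ := ext fun _ => 1

theorem aug_single (g : G) (z : ℤ) : aug G (MonoidAlgebra.single g z) = z := by
  rw [aug, ext_single]; simp

theorem eps_lin {b : ℕ} (ε : (Fin b → ZG G) →+ ℤ) (hg : ∀ (g : G) x, ε (elt g • x) = ε x)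
    (r : ZG G) (x : Fin b → ZG G) : ε (r • x) = aug G r * ε x := by
  induction r using MonoidAlgebra.induction_linear with
  | zero => simp
  | add s t hs ht => rw [add_smul, map_add, hs, ht, map_add, add_mul]
  | single g z =>
    have h : (MonoidAlgebra.single g z : ZG G) = z • elt g := by
      rw [elt, MonoidAlgebra.smul_single]; simp
    rw [h, smul_assoc, map_zsmul, hg, map_zsmul, elt, aug_single]
    simp

theorem eps_coord {b : ℕ} (ε : (Fin b → ZG G) →+ ℤ) (hg : ∀ (g : G) x, ε (elt g • x) = ε x)
    (x : Fin b → ZG G) : ε x = ∑ k, aug G (x k) * ε (Pi.single k 1) := by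
  classical
  have h : x = ∑ i, x i • (Pi.single i (1 : ZG G) : Fin b → ZG G) := by
    ext1 j
    simp [Finset.sum_apply, Pi.single_apply]
  conv_lhs => rw [h]
  rw [map_sum]
  exact Finset.sum_congr rfl fun i _ => eps_lin ε hg _ _

end Aug

variable {G H : Type} [Group G] [Group H] {n : ℕ}

theorem aug_rh (φ : G →* H) (r : ZG G) : aug H (rh φ r) = aug G r := by
  induction r using MonoidAlgebra.induction_linear with
  | zero => simp
  | add s t hs ht => rw [map_add, map_add, hs, ht, map_add]
  | single g z => rw [rh_single, aug_single, aug_single]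

theorem ext_mul_rh (F : FF G H n) (s : ZG H) (r : ZG G) :
    ext F.D (s * rh F.ι r) = aug G r • ext F.D s := by
  induction s using MonoidAlgebra.induction_linear with
  | zero => simp
  | add s t hs ht => rw [add_mul, map_add, hs, ht, map_add, smul_add]
  | single h z =>
    induction r using MonoidAlgebra.induction_linear with
    | zero => simp
    | add s t hs ht => rw [map_add, mul_add, map_add, hs, ht, map_add, add_smul]
    | single g y =>
      rw [rh_single, MonoidAlgebra.single_mul_single, ext_single, ext_single, aug_single,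
        F.D_mul, F.D_ι, smul_zero, add_zero, smul_smul, mul_comm]

theorem ext_mul_t (F : FF G H n) (s : ZG H) (j : Fin n) :
    ext F.D (s * (elt (F.t j) - 1)) = Pi.single j s := by
  induction s using MonoidAlgebra.induction_linear with
  | zero => simp
  | add s t hs ht => rw [add_mul, map_add, hs, ht, Pi.single_add]
  | single h z =>
    rw [mul_sub, mul_one, map_sub, elt, MonoidAlgebra.single_mul_single, mul_one, ext_single,
      ext_single, F.D_mul, F.D_t, smul_add, add_sub_cancel_left]
    ext1 k
    by_cases hk : k = j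
    · subst hk
      rw [Pi.smul_apply, Pi.smul_apply, Pi.single_eq_same, Pi.single_eq_same, smul_eq_mul, mul_one,
        elt, MonoidAlgebra.smul_single]
      simp
    · rw [Pi.smul_apply, Pi.smul_apply, Pi.single_eq_of_ne hk, Pi.single_eq_of_ne hk, smul_zero,
        smul_zero]

/-- the first boundary map of `D` -/
noncomputable def bd1 (F : FF G H n) {a b : ℕ} (d1 : (Fin a → ZG G) →ₗ[ZG G] (Fin b → ZG G))
    (c0 : Fin b → ZG G) : ((Fin a → ZG H) × (Fin n → ZG H)) →ₗ[ZG H] (Fin b → ZG H) :=
  LinearMap.coprod (H816.up (rh F.ι) d1)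
    (Fintype.linearCombination (ZG H) fun j => (elt (F.t j) - 1) • fun k => rh F.ι (c0 k))

theorem bd1_apply (F : FF G H n) {a b : ℕ} (d1 : (Fin a → ZG G) →ₗ[ZG G] (Fin b → ZG G))
    (c0 : Fin b → ZG G) (u : Fin a → ZG H) (w : Fin n → ZG H) (k : Fin b) :
    bd1 F d1 c0 (u, w) k = ∑ i, u i * rh F.ι (d1 (Pi.single i 1) k) +
      ∑ j, w j * (elt (F.t j) - 1) * rh F.ι (c0 k) := by
  rw [bd1, LinearMap.coprod_apply, Pi.add_apply, up_apply, Fintype.linearCombination_apply,
    Finset.sum_apply]
  simp only [Pi.smul_apply, smul_eq_mul, mul_assoc]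

/-- **exactness in degree one** -/
theorem bd1_exact (F : FF G H n) {a b c : ℕ} (d1 : (Fin a → ZG G) →ₗ[ZG G] (Fin b → ZG G))
    (d2 : (Fin c → ZG G) →ₗ[ZG G] (Fin a → ZG G)) (hex : ∀ y, d1 y = 0 → ∃ x, d2 x = y)
    (ε : (Fin b → ZG G) →+ ℤ) (hg : ∀ (g : G) x, ε (elt g • x) = ε x)
    (hε : ∀ y, ε (d1 y) = 0) (c0 : Fin b → ZG G) (hc : ε c0 = 1)
    (u : Fin a → ZG H) (w : Fin n → ZG H) (h : bd1 F d1 c0 (u, w) = 0) :
    w = 0 ∧ ∃ x, H816.up (rh F.ι) d2 x = u := by
  have hw : w = 0 := by
    have key : ∑ k, ε (Pi.single k 1) • ext F.D (bd1 F d1 c0 (u, w) k) = w := by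
      simp only [bd1_apply, map_add, map_sum, ext_mul_rh, smul_add, Finset.smul_sum,
        ext_mul_t, Finset.sum_add_distrib]
      have h1 : ∀ i, ∑ k, ε (Pi.single k 1) • aug G (d1 (Pi.single i 1) k) • ext F.D (u i) = 0 := by
        intro i
        simp only [smul_smul]
        rw [← Finset.sum_smul]
        have := eps_coord ε hg (d1 (Pi.single i 1))
        rw [hε] at this
        have h2 : ∑ k, ε (Pi.single k 1) * aug G (d1 (Pi.single i 1) k) = 0 := by
          rw [this]; exact Finset.sum_congr rfl fun k _ => mul_comm _ _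
        rw [h2, zero_smul]
      have h3 : ∀ j, ∑ k, ε (Pi.single k 1) • aug G (c0 k) • (Pi.single j (w j) : Fin n → ZG H)
          = Pi.single j (w j) := by
        intro j
        simp only [smul_smul]
        rw [← Finset.sum_smul]
        have := eps_coord ε hg c0
        rw [hc] at this
        have h2 : ∑ k, ε (Pi.single k 1) * aug G (c0 k) = 1 := by
          rw [this]; exact Finset.sum_congr rfl fun k _ => mul_comm _ _
        rw [h2, one_smul]
      have s1 : ∑ k, ∑ i, ε (Pi.single k 1) • aug G (d1 (Pi.single i 1) k) • ext F.D (u i) = 0 := by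
        rw [Finset.sum_comm]
        exact Finset.sum_eq_zero fun i _ => h1 i
      have s2 : ∑ k, ∑ j, ε (Pi.single k 1) • aug G (c0 k) •
          (Pi.single j (w j) : Fin n → ZG H) = w := by
        rw [Finset.sum_comm, Finset.sum_congr rfl fun i _ => h3 i]
        exact Finset.univ_sum_single w
      rw [s1, s2, zero_add]
    rw [← key, h]
    simp
  refine ⟨hw, row G H F.ι F.ρ F.ρι a b c d1 d2 hex u ?_⟩
  rw [hw] at h
  rw [← h, bd1, LinearMap.coprod_apply, map_zero, add_zero]

/-- **`H_0 = ℤ`** -/
theorem bd1_coker (F : FF G H n) {a b : ℕ} (d1 : (Fin a → ZG G) →ₗ[ZG G] (Fin b → ZG G))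
    (ε : (Fin b → ZG G) →+ ℤ) (hg : ∀ (g : G) x, ε (elt g • x) = ε x)
    (hε : ∀ x, ε x = 0 ↔ ∃ y, d1 y = x) (c0 : Fin b → ZG G) (hc : ε c0 = 1) :
    ∃ ε' : (Fin b → ZG H) →+ ℤ, Function.Surjective ε' ∧
      (∀ (h : H) x, ε' (elt h • x) = ε' x) ∧ (∀ x, ε' x = 0 ↔ ∃ y, bd1 F d1 c0 y = x) ∧
      ∀ (s : ZG H) x, ε' (s • fun k => rh F.ι (x k)) = aug H s * ε x := by
  classical
  let ε' : (Fin b → ZG H) →+ ℤ :=
    ∑ k, (AddMonoidHom.mulRight (ε (Pi.single k 1))).comp
      ((aug H).comp (Pi.evalAddMonoidHom _ k))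
  have he : ∀ v, ε' v = ∑ k, aug H (v k) * ε (Pi.single k 1) := by
    intro v
    simp [ε']
  have hmul : ∀ (s : ZG H) (r : ZG H), aug H (s * r) = aug H s * aug H r := by
    intro s r
    induction s using MonoidAlgebra.induction_linear with
    | zero => simp
    | add s t hs ht => rw [add_mul, map_add, hs, ht, map_add, add_mul]
    | single h z =>
      induction r using MonoidAlgebra.induction_linear with
      | zero => simp
      | add s t hs ht => rw [mul_add, map_add, hs, ht, map_add, mul_add]
      | single g y => rw [MonoidAlgebra.single_mul_single, aug_single, aug_single, aug_single]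
  have hsm : ∀ (s : ZG H) v, ε' (s • v) = aug H s * ε' v := by
    intro s v
    rw [he, he, Finset.mul_sum]
    refine Finset.sum_congr rfl fun k _ => ?_
    rw [Pi.smul_apply, smul_eq_mul, hmul, mul_assoc]
  have hin : ∀ x, ε' (fun k => rh F.ι (x k)) = ε x := by
    intro x
    rw [he, eps_coord ε hg x]
    simp only [aug_rh]
  have hel : ∀ h : H, aug H (elt h) = 1 := fun h => aug_single h 1
  have hone : aug H (1 : ZG H) = 1 := aug_single 1 1
  let C0 : Fin b → ZG H := fun k => rh F.ι (c0 k)
  -- the range
  let Q : Submodule (ZG H) (Fin b → ZG H) := LinearMap.range (bd1 F d1 c0)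
  have hup : ∀ y : Fin a → ZG G, (fun k => rh F.ι (d1 y k)) ∈ Q := by
    intro y
    refine ⟨(fun i => rh F.ι (y i), 0), ?_⟩
    ext1 k
    rw [bd1_apply, lin_apply d1 y k, map_sum]
    simp
  have hQ0 : ∀ x : Fin b → ZG G, ε x = 0 → (fun k => rh F.ι (x k)) ∈ Q := by
    intro x hx
    obtain ⟨y, rfl⟩ := (hε x).1 hx
    exact hup y
  have hsub : ∀ h : H, elt h • C0 - C0 ∈ Q := by
    intro h
    have hh : h ∈ Subgroup.closure (Set.range F.ι ∪ Set.range F.t) := by
      rw [F.gen]; trivial
    induction hh using Subgroup.closure_induction with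
    | mem x hx =>
      rcases hx with ⟨g, rfl⟩ | ⟨j, rfl⟩
      · have h1 : ε (elt g • c0 - c0) = 0 := by rw [map_sub, hg, sub_self]
        have h2 := hQ0 _ h1
        have h3 : (fun k => rh F.ι ((elt g • c0 - c0) k)) = elt (F.ι g) • C0 - C0 := by
          ext1 k
          simp only [Pi.sub_apply, Pi.smul_apply, smul_eq_mul, map_sub, map_mul, C0]
          rw [elt, rh_single, elt]
        rw [h3] at h2
        exact h2
      · refine ⟨(0, Pi.single j 1), ?_⟩
        ext1 k
        rw [bd1_apply]
        simp [C0, Pi.single_apply, sub_mul]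
    | one =>
      have : (elt (1 : H) : ZG H) = 1 := rfl
      rw [this, one_smul, sub_self]
      exact Q.zero_mem
    | mul x y _ _ hx hy =>
      have h1 : elt (x * y) • C0 - C0 = elt x • (elt y • C0 - C0) + (elt x • C0 - C0) := by
        have : (elt (x * y) : ZG H) = elt x * elt y := by
          rw [elt, elt, elt, MonoidAlgebra.single_mul_single, one_mul]
        rw [this, smul_sub, smul_smul]
        abel
      rw [h1]
      exact Q.add_mem (Q.smul_mem _ hy) hx
    | inv x _ hx =>
      have h1 : elt x⁻¹ • C0 - C0 = -(elt x⁻¹ • (elt x • C0 - C0)) := by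
        have : (elt x⁻¹ : ZG H) * elt x = 1 := by
          rw [elt, elt, MonoidAlgebra.single_mul_single, one_mul, inv_mul_cancel]; rfl
        rw [smul_sub, smul_smul, this, one_smul]
        abel
      rw [h1]
      exact Q.neg_mem (Q.smul_mem _ hx)
  have hsub2 : ∀ s : ZG H, s • C0 - aug H s • C0 ∈ Q := by
    intro s
    induction s using MonoidAlgebra.induction_linear with
    | zero => simp
    | add s t hs ht =>
      have : (s + t) • C0 - aug H (s + t) • C0 =
          (s • C0 - aug H s • C0) + (t • C0 - aug H t • C0) := by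
        rw [map_add, add_smul, add_smul]; abel
      rw [this]
      exact Q.add_mem hs ht
    | single h z =>
      have h1 : (MonoidAlgebra.single h z : ZG H) = z • elt h := by
        rw [elt, MonoidAlgebra.smul_single]; simp
      rw [aug_single, h1, smul_assoc, ← smul_sub]
      exact Q.smul_of_tower_mem z (hsub h)
  refine ⟨ε', ?_, ?_, ?_, ?_⟩
  · intro z
    refine ⟨z • C0, ?_⟩
    rw [map_zsmul, hin, hc]; simp
  · intro h x
    rw [hsm, hel, one_mul]
  · intro x
    constructor
    · intro hx
      have h1 : x - ε' x • C0 ∈ Q := by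
        have e1 : x = ∑ k, x k • (Pi.single k (1 : ZG H) : Fin b → ZG H) := by
          ext1 j
          simp [Finset.sum_apply, Pi.single_apply]
        have e2 : ε' x • C0 = ∑ k, ε (Pi.single k 1) • aug H (x k) • C0 := by
          rw [he, Finset.sum_smul]
          refine Finset.sum_congr rfl fun k _ => ?_
          rw [smul_smul, mul_comm]
        have e3 : x - ε' x • C0 = ∑ k, (x k • ((Pi.single k (1 : ZG H) : Fin b → ZG H) -
            ε (Pi.single k 1) • C0) + ε (Pi.single k 1) • (x k • C0 - aug H (x k) • C0)) := by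
          rw [e2]
          conv_lhs => rw [e1]
          rw [← Finset.sum_sub_distrib]
          refine Finset.sum_congr rfl fun k _ => ?_
          rw [smul_sub, smul_sub, smul_comm (x k) (ε (Pi.single k 1)) C0]
          have : (∑ k, x k • (Pi.single k (1 : ZG H) : Fin b → ZG H)) k = x k := by rw [← e1]
          first
            | rw [this]; abel
            | abel
        rw [e3]
        refine Q.sum_mem fun k _ => Q.add_mem (Q.smul_mem _ ?_)
          (Q.smul_of_tower_mem _ (hsub2 _))
        have h2 : ε (Pi.single k 1 - ε (Pi.single k 1) • c0) = 0 := by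
          rw [map_sub, map_zsmul, hc]; simp
        have h3 := hQ0 _ h2
        have h4 : (fun i => rh F.ι (((Pi.single k (1 : ZG G) : Fin b → ZG G) -
            ε (Pi.single k 1) • c0) i)) =
            (Pi.single k (1 : ZG H) : Fin b → ZG H) - ε (Pi.single k 1) • C0 := by
          ext1 i
          simp only [Pi.sub_apply, Pi.smul_apply, map_sub, map_zsmul, C0]
          congr 1
          by_cases hik : i = k
          · subst hik; simp
          · simp [Pi.single_eq_of_ne hik]
        rw [h4] at h3
        exact h3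
      rw [hx, zero_smul, sub_zero] at h1
      exact h1
    · rintro ⟨⟨u, w⟩, rfl⟩
      have e1 : bd1 F d1 c0 (u, w) = ∑ i, u i • (fun k => rh F.ι (d1 (Pi.single i 1) k)) +
          ∑ j, (w j * (elt (F.t j) - 1)) • C0 := by
        ext1 k
        rw [bd1_apply]
        simp [Finset.sum_apply, C0]
      rw [e1, map_add, map_sum, map_sum]
      have e2 : ∀ i, ε' (u i • (fun k => rh F.ι (d1 (Pi.single i 1) k))) = 0 := by
        intro i
        rw [hsm, hin, (hε _).2 ⟨_, rfl⟩, mul_zero]
      have e3 : ∀ j, ε' ((w j * (elt (F.t j) - 1)) • C0) = 0 := by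
        intro j
        rw [hsm, hmul, map_sub, hel, hone, sub_self, mul_zero, zero_mul]
      simp [e2, e3]
  · intro s x
    rw [hsm, hin]

end Vale.Agent.P246.H675
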