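import Vale.Agent.P246.R3.H675.Main
import Vale.Agent.P246.R2.H925.Fox

/-! # P246.FreeFactor, version for `G * K`: the free product -/

namespace Vale.Agent.P246.H675

open Vale.Agent.P246 Vale.Agent.P246.H816 Vale.Agent.P246.H925

/-- the relation map `S^q → S^p` of words in elements `x` of `H` -/
noncomputable def rel {H : Type} [Group H] {p q : ℕ} (x : Fin p → H)
    (r : Fin q → FreeGroup (Fin p)) : (Fin q → ZG H) →ₗ[ZG H] (Fin p → ZG H) :=
  Fintype.linearCombination (ZG H) fun j => fd x (r j)

/-- What is used of the free product `H = G * K`, `K = ⟨x | r⟩` killed by the words `v`. -/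
structure FK (G H : Type) [Group G] [Group H] (p q m : ℕ) where
  ι : G →* H
  ρ : H →* G
  x : Fin p → H
  r : Fin q → FreeGroup (Fin p)
  v : Fin m → FreeGroup (Fin p)
  ρι : ∀ g, ρ (ι g) = g
  ρx : ∀ i, ρ (x i) = 1
  ker : ρ.ker = Subgroup.normalClosure (Set.range fun j => FreeGroup.lift x (v j))
  gen : Subgroup.closure (Set.range ι ∪ Set.range x) = ⊤
  rel1 : ∀ j, FreeGroup.lift x (r j) = 1
  D : H → ((Fin p → ZG H) ⧸ LinearMap.range (rel x r))
  D_mul : ∀ a b, D (a * b) = D a + elt a • D b
  D_ι : ∀ g, D (ι g) = 0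
  D_x : ∀ i, D (x i) = (LinearMap.range (rel x r)).mkQ (Pi.single i 1)

section Aff

variable {H M : Type} [Group H] [AddCommGroup M] [Module (ZG H) M]

/-- the affine map `y ↦ a y + c` -/
noncomputable def affM (a : H) (c : M) : Equiv.Perm M where
  toFun y := elt a • y + c
  invFun y := elt a⁻¹ • (y - c)
  left_inv y := by
    simp only [add_sub_cancel_right]
    rw [smul_smul, ← H320.elt_mul', inv_mul_cancel, H320.elt_one', one_smul]
  right_inv y := by
    change elt a • elt a⁻¹ • (y - c) + c = y
    rw [smul_smul, ← H320.elt_mul', mul_inv_cancel, H320.elt_one', one_smul, sub_add_cancel]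

theorem affM_apply (a : H) (c y : M) : affM a c y = elt a • y + c := rfl

/-- the action of a group by a homomorphism and a derivation -/
noncomputable def affHom {K : Type} [Group K] (f : K →* H) (d : K → M)
    (hd : ∀ a b, d (a * b) = d a + elt (f a) • d b) : K →* Equiv.Perm M where
  toFun k := affM (f k) (d k)
  map_one' := by
    have h1 : d 1 = 0 := by
      have := hd 1 1
      rw [mul_one, map_one, H320.elt_one', one_smul] at this
      exact left_eq_add.1 this
    ext1 y
    rw [affM_apply, h1, map_one, H320.elt_one', one_smul, add_zero]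
    rfl
  map_mul' a b := by
    ext1 y
    rw [Equiv.Perm.mul_apply, affM_apply, affM_apply, affM_apply, hd, map_mul, H320.elt_mul',
      smul_add, smul_smul]
    abel

end Aff

open Monoid.Coprod in
/-- **the free product `G * K`** -/
theorem exists_FK (G K : Type) [Group G] [Group K] (Q : FinPresentation K) (m : ℕ)
    (v : Fin m → FreeGroup (Fin Q.gens))
    (hv : Subgroup.normalClosure (Set.range Q.r ∪ Set.range v) = ⊤) :
    ∃ F : FK G (Monoid.Coprod G K) Q.gens Q.rels m, F.r = Q.r ∧ F.v = v := by
  classical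
  let H := Monoid.Coprod G K
  let ι : G →* H := inl
  let κ : K →* H := inr
  let x : Fin Q.gens → H := fun i => κ (Q.x i)
  let ρ : H →* G := lift (MonoidHom.id G) 1
  have hρι : ∀ g, ρ (ι g) = g := fun g => lift_apply_inl _ _ _
  have hρκ : ∀ k, ρ (κ k) = 1 := fun k => lift_apply_inr _ _ _
  have hlift : ∀ w, FreeGroup.lift x w = κ (FreeGroup.lift Q.x w) := by
    intro w
    have : FreeGroup.lift x = κ.comp (FreeGroup.lift Q.x) := by
      ext i
      simp [x]
    rw [this]; rfl
  have hrel : ∀ j, FreeGroup.lift x (Q.r j) = 1 := by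
    intro j
    have h1 : Q.r j ∈ (FreeGroup.lift Q.x).ker := by
      rw [Q.ker_eq]
      exact Subgroup.subset_normalClosure ⟨j, rfl⟩
    rw [hlift, MonoidHom.mem_ker.1 h1, map_one]
  have hker : ρ.ker = Subgroup.normalClosure (Set.range fun j => FreeGroup.lift x (v j)) := by
    apply le_antisymm
    · intro h hh
      let N := Subgroup.normalClosure (Set.range fun j => FreeGroup.lift x (v j))
      let qq : H →* H ⧸ N := QuotientGroup.mk' N
      have hqk : ∀ k, qq (κ k) = 1 := by
        have h1 : Subgroup.normalClosure (Set.range Q.r ∪ Set.range v) ≤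
            (qq.comp (FreeGroup.lift x)).ker := by
          apply Subgroup.normalClosure_le_normal
          rintro _ (⟨j, rfl⟩ | ⟨j, rfl⟩)
          · change qq (FreeGroup.lift x (Q.r j)) = 1
            rw [hrel, map_one]
          · change qq (FreeGroup.lift x (v j)) = 1
            exact (QuotientGroup.eq_one_iff _).2 (Subgroup.subset_normalClosure ⟨j, rfl⟩)
        intro k
        obtain ⟨w, rfl⟩ := Q.surj k
        rw [← hlift]
        have h2 : w ∈ (qq.comp (FreeGroup.lift x)).ker := h1 (by rw [hv]; trivial)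
        exact h2
      have hq : qq = qq.comp (ι.comp ρ) := by
        apply Monoid.Coprod.hom_ext
        · ext g
          simp [ρ, ι]
        · ext k
          change qq (κ k) = qq (ι (ρ (κ k)))
          rw [hqk, hρκ, map_one, map_one]
      have h2 : qq h = 1 := by
        rw [hq]
        change qq (ι (ρ h)) = 1
        rw [(MonoidHom.mem_ker).1 hh, map_one, map_one]
      exact (QuotientGroup.eq_one_iff _).1 h2
    · apply Subgroup.normalClosure_le_normal
      rintro _ ⟨j, rfl⟩
      change ρ (FreeGroup.lift x (v j)) = 1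
      rw [hlift]
      exact hρκ _
  have hgen : Subgroup.closure (Set.range ι ∪ Set.range x) = ⊤ := by
    rw [eq_top_iff, ← range_inl_sup_range_inr (G := G) (H := K)]
    refine sup_le ?_ ?_
    · rintro _ ⟨g, rfl⟩
      exact Subgroup.subset_closure (Or.inl ⟨g, rfl⟩)
    · rintro _ ⟨k, rfl⟩
      obtain ⟨w, rfl⟩ := Q.surj k
      change κ (FreeGroup.lift Q.x w) ∈ _
      rw [← hlift]
      have h1 : (FreeGroup.lift x).range ≤ Subgroup.closure (Set.range ι ∪ Set.range x) := by
        rw [FreeGroup.range_lift_eq_closure]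
        exact Subgroup.closure_mono Set.subset_union_right
      exact h1 ⟨w, rfl⟩
  let W := LinearMap.range (rel x Q.r)
  have hkerW : ∀ w, FreeGroup.lift Q.x w = 1 → fd x w ∈ W := by
    intro w hw
    have h1 : (FreeGroup.lift Q.x).ker ≤ nsub x W := by
      rw [Q.ker_eq]
      have := nsub_normal x W
      apply Subgroup.normalClosure_le_normal
      rintro _ ⟨j, rfl⟩
      refine ⟨hrel j, Pi.single j 1, ?_⟩
      rw [rel, Fintype.linearCombination_apply_single, one_smul]
    exact (h1 (MonoidHom.mem_ker.2 hw)).2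
  have hfeq : ∀ w w', FreeGroup.lift Q.x w = FreeGroup.lift Q.x w' →
      W.mkQ (fd x w) = W.mkQ (fd x w') := by
    intro w w' h
    have h1 : FreeGroup.lift Q.x (w * w'⁻¹) = 1 := by
      rw [map_mul, map_inv, h, mul_inv_cancel]
    have h2 := hkerW _ h1
    have h3 : fd x w = fd x (w * w'⁻¹) + fd x w' := by
      have h5 := fd_mul x (w * w'⁻¹) w'
      rw [inv_mul_cancel_right, hlift, h1, map_one, H320.elt_one', one_smul] at h5
      exact h5
    rw [h3, map_add]
    have h4 : W.mkQ (fd x (w * w'⁻¹)) = 0 := by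
      rw [Submodule.mkQ_apply, Submodule.Quotient.mk_eq_zero]
      exact h2
    rw [h4, zero_add]
  choose s hs using Q.surj
  let dK : K → ((Fin Q.gens → ZG H) ⧸ W) := fun k => W.mkQ (fd x (s k))
  have hdK : ∀ a b, dK (a * b) = dK a + elt (κ a) • dK b := by
    intro a b
    have h1 : W.mkQ (fd x (s (a * b))) = W.mkQ (fd x (s a * s b)) := by
      apply hfeq
      rw [map_mul, hs, hs, hs]
    change W.mkQ (fd x (s (a * b))) = W.mkQ (fd x (s a)) + elt (κ a) • W.mkQ (fd x (s b))
    rw [h1, fd_mul, map_add, map_smul, hlift, hs]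
  let A : H →* Equiv.Perm ((Fin Q.gens → ZG H) ⧸ W) :=
    lift (affHom ι (fun _ => 0) (fun a b => by rw [smul_zero, add_zero])) (affHom κ dK hdK)
  have hAι : ∀ g y, A (ι g) y = elt (ι g) • y := fun g y => by
    have h1 : A (ι g) = affHom ι (fun _ => 0) (fun a b => by rw [smul_zero, add_zero]) g :=
      lift_apply_inl _ _ _
    rw [h1]
    exact add_zero _
  have hAκ : ∀ k y, A (κ k) y = elt (κ k) • y + dK k := fun k y => by
    have h1 : A (κ k) = affHom κ dK hdK k := lift_apply_inr _ _ _
    rw [h1]
    rfl
  have hA : ∀ h y, A h y = elt h • y + A h 0 := by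
    intro h
    have hmem : h ∈ Subgroup.closure (Set.range ι ∪ Set.range x) := by
      rw [hgen]; exact Subgroup.mem_top h
    induction hmem using Subgroup.closure_induction with
    | mem h hh =>
      rcases hh with ⟨g, rfl⟩ | ⟨j, rfl⟩
      · intro y
        rw [hAι, hAι, smul_zero, add_zero]
      · intro y
        change A (κ (Q.x j)) y = elt (κ (Q.x j)) • y + A (κ (Q.x j)) 0
        rw [hAκ, hAκ, smul_zero, zero_add]
    | one =>
      intro y
      rw [map_one, H320.elt_one', one_smul]
      simp
    | mul a b _ _ iha ihb =>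
      intro y
      rw [map_mul, Equiv.Perm.mul_apply, Equiv.Perm.mul_apply, iha (A b y), ihb y, iha (A b 0),
        H320.elt_mul', smul_add, smul_smul, add_assoc]
    | inv a _ iha =>
      have h1 : ∀ y, A a⁻¹ y = elt a⁻¹ • (y - A a 0) := by
        intro y
        have h2 : A a (elt a⁻¹ • (y - A a 0)) = y := by
          rw [iha, smul_smul, ← H320.elt_mul', mul_inv_cancel, H320.elt_one', one_smul,
            sub_add_cancel]
        rw [map_inv, Equiv.Perm.inv_def, Equiv.symm_apply_eq, h2]
      intro y
      rw [h1 y, h1 0, ← smul_add]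
      congr 1
      abel
  refine ⟨{ ι := ι, ρ := ρ, x := x, r := Q.r, v := v, ρι := hρι, ρx := fun i => hρκ _,
            ker := hker, gen := hgen, rel1 := hrel
            D := fun h => A h 0
            D_mul := fun a b => by
              rw [map_mul, Equiv.Perm.mul_apply, hA a (A b 0), add_comm]
            D_ι := fun g => by rw [hAι, smul_zero]
            D_x := fun i => ?_ }, rfl, rfl⟩
  change A (κ (Q.x i)) 0 = W.mkQ (Pi.single i 1)
  rw [hAκ, smul_zero, zero_add]
  change W.mkQ (fd x (s (Q.x i))) = _
  have h1 : W.mkQ (fd x (s (Q.x i))) = W.mkQ (fd x (FreeGroup.of i)) := by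
    apply hfeq
    rw [hs, FreeGroup.lift_apply_of]
  rw [h1, fd_of]

end Vale.Agent.P246.H675
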