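import Vale.Agent.P246.R3.H675.Cone

/-! # P246.FreeFactor, version for `G * K`: the cone argument -/

namespace Vale.Agent.P246.H675

variable {R : Type} [Ring R] {F0 F1 F2 D0 D1 D2 : Type} [AddCommGroup F0] [AddCommGroup F1]
    [AddCommGroup F2] [AddCommGroup D0] [AddCommGroup D1] [AddCommGroup D2] [Module R F0]
    [Module R F1] [Module R F2] [Module R D0] [Module R D1] [Module R D2] {p q m : ℕ}

/-- **the cone argument**: cells `δ j` killed in `F` and cells with boundary `γ e_j` in `D`,
where `β + γ` is bijective -/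
noncomputable def coneK (p1 : F1 →ₗ[R] F0) (p2 : F2 →ₗ[R] F1) (d1 : D1 →ₗ[R] D0)
    (d2 : D2 →ₗ[R] D1) (β : (Fin q → R) →ₗ[R] (Fin p → R)) (γ : (Fin m → R) →ₗ[R] (Fin p → R))
    (E : HE R p1 p2 (d1 ∘ₗ LinearMap.fst R D1 (Fin p → R)) (LinearMap.prodMap d2 β))
    (hinj : ∀ y l, β y + γ l = 0 → y = 0 ∧ l = 0) (hsurj : ∀ w, ∃ y l, β y + γ l = w)
    (hex : ∀ u, d1 u = 0 → ∃ v, d2 v = u)
    (δ : Fin m → F1) (hδ : ∀ j, p1 (δ j) = 0) (z : Fin m → D2) (y0 : Fin m → (Fin q → R))
    (s : ℤ) (hs : s * s = 1)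
    (hz : ∀ j, E.f1 (δ j) = (d2 (z j), β (y0 j) + s • γ (Pi.single j 1))) :
    QI R p1 (LinearMap.coprod p2 (Fintype.linearCombination R δ)) d1 d2 := by
  have e1 : ∀ l : Fin m → R, E.f1 (Fintype.linearCombination R δ l) =
      (d2 (Fintype.linearCombination R z l),
        β (Fintype.linearCombination R y0 l) + s • γ l) := by
    intro l
    rw [Fintype.linearCombination_apply, Fintype.linearCombination_apply,
      Fintype.linearCombination_apply, map_sum, map_sum, map_sum]
    have h1 : ∀ j, E.f1 (l j • δ j) =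
        (d2 (l j • z j), β (l j • y0 j) + s • γ (Pi.single j (l j))) := by
      intro j
      rw [map_smul, hz, Prod.smul_mk, map_smul, smul_add, map_smul]
      congr 2
      rw [smul_comm, ← map_smul]
      congr 2
      ext1 k
      by_cases hk : k = j
      · subst hk; simp
      · simp [Pi.single_eq_of_ne hk]
    simp only [h1]
    rw [Prod.ext_iff]
    refine ⟨by simp [Prod.fst_sum], ?_⟩
    rw [Prod.snd_sum]
    simp only []
    rw [Finset.sum_add_distrib, ← Finset.smul_sum, ← map_sum γ, Finset.univ_sum_single]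
  have fc1 : ∀ u, d1 (E.f1 u).1 = E.f0 (p1 u) := fun u => LinearMap.congr_fun E.fc1 u
  have fc2 : ∀ u, ((d2 (E.f2 u).1, β (E.f2 u).2) : D1 × (Fin p → R)) = E.f1 (p2 u) :=
    fun u => LinearMap.congr_fun E.fc2 u
  have gc1 : ∀ u, p1 (E.g1 u) = E.g0 (d1 u.1) := fun u => LinearMap.congr_fun E.gc1 u
  have gc2 : ∀ u, p2 (E.g2 u) = E.g1 (d2 u.1, β u.2) := fun u => LinearMap.congr_fun E.gc2 u
  have eK0 : ∀ x, E.g0 (E.f0 x) = x + p1 (E.k0 x) := fun u => LinearMap.congr_fun E.eK0 u
  have eK1 : ∀ x, E.g1 (E.f1 x) = x + p2 (E.k1 x) + E.k0 (p1 x) :=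
    fun u => LinearMap.congr_fun E.eK1 u
  have eK2 : ∀ x, E.g2 (E.f2 x) = x + E.k1 (p2 x) := fun u => LinearMap.congr_fun E.eK2 u
  have eH0 : ∀ x, E.f0 (E.g0 x) = x + d1 (E.h0 x).1 := fun u => LinearMap.congr_fun E.eH0 u
  have eH2 : ∀ x, E.f2 (E.g2 x) = x + E.h1 (d2 x.1, β x.2) :=
    fun u => LinearMap.congr_fun E.eH2 u
  exact
  { F0 := E.f0
    F1 := (LinearMap.fst R D1 (Fin p → R)) ∘ₗ E.f1
    F2 := LinearMap.coprod ((LinearMap.fst R D2 (Fin q → R)) ∘ₗ E.f2)
      (Fintype.linearCombination R z)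
    c1 := fc1
    c2 := by
      rintro ⟨x, l⟩
      rw [LinearMap.coprod_apply, LinearMap.coprod_apply, map_add, map_add, LinearMap.comp_apply,
        LinearMap.comp_apply, LinearMap.comp_apply, e1, ← fc2]
      rfl
    i0 := by
      rintro x ⟨y, hy⟩
      refine ⟨E.g1 (y, 0) - E.k0 x, ?_⟩
      rw [map_sub, gc1, hy, eK0, add_sub_cancel_right]
    s0 := by
      intro y
      refine ⟨E.g0 y, -(E.h0 y).1, ?_⟩
      rw [eH0, map_neg, add_neg_cancel_right]
    i1 := by
      intro x hx
      have h1 := fc1 x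
      rw [hx, map_zero] at h1
      obtain ⟨v, hv⟩ := hex _ h1
      obtain ⟨y, l, hyl⟩ := hsurj (E.f1 x).2
      let x' := x - Fintype.linearCombination R δ (s • l)
      have h2 : E.f1 x' = (d2 (v - Fintype.linearCombination R z (s • l)),
          β (y - Fintype.linearCombination R y0 (s • l))) := by
        rw [map_sub, e1, map_sub, map_sub, hv]
        apply Prod.ext
        · rfl
        · change (E.f1 x).2 - (β (Fintype.linearCombination R y0 (s • l)) + s • γ (s • l)) =
            β y - β (Fintype.linearCombination R y0 (s • l))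
          have h9 : s • γ (s • l) = γ l := by rw [map_zsmul, smul_smul, hs, one_smul]
          rw [h9, ← hyl]
          abel
      have h3 : p1 x' = 0 := by
        rw [map_sub, hx, Fintype.linearCombination_apply, map_sum]
        simp [hδ]
      have h4 := eK1 x'
      rw [h3, map_zero, add_zero] at h4
      have h5 := gc2 (v - Fintype.linearCombination R z (s • l),
        y - Fintype.linearCombination R y0 (s • l))
      rw [h2, ← h5] at h4
      refine ⟨(E.g2 (v - Fintype.linearCombination R z (s • l),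
        y - Fintype.linearCombination R y0 (s • l)) - E.k1 x', s • l), ?_⟩
      rw [LinearMap.coprod_apply, map_sub, h4, add_sub_cancel_right]
      exact sub_add_cancel _ _
    i2 := by
      rintro ⟨x, l⟩ hx h0
      rw [LinearMap.coprod_apply] at hx h0
      have h1 := congrArg E.f1 hx
      rw [map_add, e1, ← fc2, map_zero] at h1
      have h2 : β (E.f2 x).2 + (β (Fintype.linearCombination R y0 l) + s • γ l) = 0 :=
        congrArg Prod.snd h1
      rw [← map_zsmul, ← add_assoc, ← map_add] at h2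
      obtain ⟨h5, h6⟩ := hinj _ _ h2
      have h3 : l = 0 := by
        have := congrArg (fun t => s • t) h6
        simp only [smul_smul, hs, one_smul, smul_zero] at this
        exact this
      subst h3
      rw [map_zero, add_zero] at hx h0 h5
      have h7 : E.f2 x = 0 := Prod.ext h0 h5
      have h4 := eK2 x
      rw [hx, h7, map_zero, map_zero, add_zero] at h4
      rw [← h4]; rfl
    s2 := by
      intro y hy
      have h0 : ((d2 y, β 0) : D1 × (Fin p → R)) = 0 := by rw [hy, map_zero]; rfl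
      refine ⟨(E.g2 (y, 0), 0), ?_, ?_⟩
      · rw [LinearMap.coprod_apply, map_zero, add_zero, gc2]
        change E.g1 (d2 y, β 0) = 0
        rw [h0, map_zero]
      · rw [LinearMap.coprod_apply, map_zero, add_zero, LinearMap.comp_apply, eH2]
        change y = ((y, 0) + E.h1 (d2 y, β 0) : D2 × (Fin q → R)).1
        rw [h0, map_zero, add_zero] }

end Vale.Agent.P246.H675
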