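import Vale.Agent.P246.R3.H675.K4

/-! # P246.FreeFactor, version for `G * K`: unimodularity and the theorem -/

namespace Vale.Agent.P246.H675

open CategoryTheory Function Vale.Agent.P246 Vale.Agent.P246.H816 Vale.Agent.P246.H429
open Vale.Agent.P246.H925

theorem rel_append {H : Type} [Group H] {p q m : ℕ} (x : Fin p → H)
    (r : Fin q → FreeGroup (Fin p)) (v : Fin m → FreeGroup (Fin p)) (y : Fin q → ZG H)
    (l : Fin m → ZG H) : rel x (Fin.append r v) (Fin.append y l) = rel x r y + rel x v l := by
  rw [rel, rel, rel, Fintype.linearCombination_apply, Fintype.linearCombination_apply,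
    Fintype.linearCombination_apply, Fin.sum_univ_add]
  congr 1
  · refine Finset.sum_congr rfl fun i _ => ?_
    rw [Fin.append_left, Fin.append_left]
  · refine Finset.sum_congr rfl fun i _ => ?_
    rw [Fin.append_right, Fin.append_right]

theorem range_append {α : Type} {q m : ℕ} (r : Fin q → α) (v : Fin m → α) :
    Set.range (Fin.append r v) = Set.range r ∪ Set.range v := by
  ext w
  constructor
  · rintro ⟨i, rfl⟩
    induction i using Fin.addCases with
    | left i => left; exact ⟨i, (Fin.append_left r v i).symm⟩
    | right i => right; exact ⟨i, (Fin.append_right r v i).symm⟩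
  · rintro (⟨i, rfl⟩ | ⟨i, rfl⟩)
    · exact ⟨Fin.castAdd m i, Fin.append_left r v i⟩
    · exact ⟨Fin.natAdd q i, Fin.append_right r v i⟩

/-- the presentation of the trivial group -/
noncomputable def trivPres {p q m : ℕ} (r : Fin q → FreeGroup (Fin p))
    (v : Fin m → FreeGroup (Fin p))
    (hv : Subgroup.normalClosure (Set.range r ∪ Set.range v) = ⊤) : FinPresentation Unit where
  gens := p
  rels := q + m
  x := fun _ => 1
  r := Fin.append r v
  surj := fun _ => ⟨1, Subsingleton.elim _ _⟩
  ker_eq := by
    rw [range_append, hv]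
    ext w
    simp

theorem triv_bij {p q m : ℕ} (r : Fin q → FreeGroup (Fin p)) (v : Fin m → FreeGroup (Fin p))
    (hv : Subgroup.normalClosure (Set.range r ∪ Set.range v) = ⊤) (hqm : q + m = p) :
    Bijective (rel (fun _ : Fin p => (1 : Unit)) (Fin.append r v)) := by
  let P := trivPres r v hv
  have hs : Surjective (rel (fun _ : Fin p => (1 : Unit)) (Fin.append r v)) := by
    have h1 : ∀ w : Fin P.gens → ZG Unit, foxD1 P w = 0 := by
      intro w
      rw [foxD1, Fintype.linearCombination_apply]
      refine Finset.sum_eq_zero fun i _ => ?_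
      have : elt (P.x i) - 1 = (0 : ZG Unit) := sub_self _
      rw [this, smul_zero]
    intro w
    exact fox_exact Unit P w (h1 w)
  refine ⟨?_, hs⟩
  let e : (Fin p → ZG Unit) ≃ₗ[ZG Unit] (Fin (q + m) → ZG Unit) :=
    LinearEquiv.funCongrLeft (ZG Unit) (ZG Unit) (finCongr hqm)
  have h2 : Surjective ((rel (fun _ : Fin p => (1 : Unit)) (Fin.append r v)) ∘ₗ
      e.toLinearMap) := hs.comp e.surjective
  have h3 := OrzechProperty.injective_of_surjective_endomorphism _ h2
  intro a b hab
  have h4 : e.symm a = e.symm b := by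
    apply h3
    change rel _ _ (e (e.symm a)) = rel _ _ (e (e.symm b))
    rw [LinearEquiv.apply_symm_apply, LinearEquiv.apply_symm_apply, hab]
  exact e.symm.injective h4

theorem bc_bij {S R : Type} [Ring S] [Ring R] {φ : S →+* R} {X X' Y Y' : Type} [AddCommGroup X]
    [Module S X] [AddCommGroup X'] [Module R X'] [AddCommGroup Y] [Module S Y] [AddCommGroup Y']
    [Module R Y'] (A : BC φ X X') (B : BC φ Y Y') (M : X →ₗ[S] Y) (h : Bijective M) :
    Bijective (bc A B M) := by
  let e := LinearEquiv.ofBijective M h
  have h1 : e.symm.toLinearMap ∘ₗ M = LinearMap.id := LinearMap.ext e.symm_apply_apply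
  have h2 : M ∘ₗ e.symm.toLinearMap = LinearMap.id := LinearMap.ext e.apply_symm_apply
  have h3 := bc_comp A B A M e.symm.toLinearMap
  have h4 := bc_comp B A B e.symm.toLinearMap M
  rw [h1, bc_id] at h3
  rw [h2, bc_id] at h4
  constructor
  · intro a b hab
    have h5 := LinearMap.congr_fun h3 a
    have h6 := LinearMap.congr_fun h3 b
    rw [LinearMap.comp_apply] at h5 h6
    rw [hab, ← h6] at h5
    exact h5
  · intro y
    exact ⟨_, (LinearMap.congr_fun h4 y).symm⟩

theorem unimod (G : Type) [Group G] {p q m : ℕ} (r : Fin q → FreeGroup (Fin p))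
    (v : Fin m → FreeGroup (Fin p))
    (hv : Subgroup.normalClosure (Set.range r ∪ Set.range v) = ⊤) (hqm : q + m = p) :
    Bijective (rel (fun _ : Fin p => (1 : G)) (Fin.append r v)) := by
  have h1 := bc_rel (1 : Unit →* G) (fun _ : Fin p => (1 : Unit)) (Fin.append r v)
  have h2 := bc_bij (BC.pi (rh (1 : Unit →* G)) (q + m)) (BC.pi (rh (1 : Unit →* G)) p) _
    (triv_bij r v hv hqm)
  rw [h1] at h2
  exact h2

/-- **the theorem**: the D(2) property descends along `G * K → G`, if `K` has a presentation with
`m` more generators than relators and is killed by `m` elements -/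
theorem freeFactorK (G K : Type) [Group G] [Group K] (Q : FinPresentation K) (m : ℕ)
    (hm : Q.rels + m = Q.gens) (v : Fin m → FreeGroup (Fin Q.gens))
    (hv : Subgroup.normalClosure (Set.range Q.r ∪ Set.range v) = ⊤)
    (h : AlgebraicD2Property (Monoid.Coprod G K)) : AlgebraicD2Property G := by
  obtain ⟨F, hr, hvv⟩ := exists_FK G K Q m v hv
  have hb := unimod G Q.r v hv hm
  refine descendK F ?_ ?_ h
  · intro y l hyl
    rw [hr, hvv, ← rel_append] at hyl
    have h1 : Fin.append y l = 0 := hb.1 (hyl.trans (map_zero _).symm)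
    constructor
    · ext1 i
      have := congrFun h1 (Fin.castAdd m i)
      rwa [Fin.append_left] at this
    · ext1 i
      have := congrFun h1 (Fin.natAdd Q.rels i)
      rwa [Fin.append_right] at this
  · intro w
    obtain ⟨t, ht⟩ := hb.2 w
    refine ⟨fun i => t (Fin.castAdd m i), fun i => t (Fin.natAdd Q.rels i), ?_⟩
    rw [hr, hvv, ← rel_append, ← ht]
    congr 1
    ext1 i
    induction i using Fin.addCases with
    | left i => rw [Fin.append_left]
    | right i => rw [Fin.append_right]

end Vale.Agent.P246.H675
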