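import Vale.Agent.P246.R3.H675.Bc

/-! # P246.FreeFactor: three-term chain complexes -/

namespace Vale.Agent.P246.H675

open CategoryTheory Vale.Agent.P246 Vale.Agent.P246.H816

section General

variable {S : Type} [Ring S]

theorem comm_pt {A B : ChainComplex (ModuleCat.{0} S) ℕ} (f : A ⟶ B) (i : ℕ) (x : A.X (i + 1)) :
    (B.d (i + 1) i).hom ((f.f (i + 1)).hom x) = (f.f i).hom ((A.d (i + 1) i).hom x) :=
  LinearMap.congr_fun (congrArg ModuleCat.Hom.hom (f.comm (i + 1) i)) x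

theorem hom_zero_pt {A B : ChainComplex (ModuleCat.{0} S) ℕ} {f : A ⟶ B} {g : B ⟶ A}
    (h : Homotopy (f ≫ g) (𝟙 A)) (x : A.X 0) :
    (g.f 0).hom ((f.f 0).hom x) = x + (A.d 1 0).hom ((h.hom 0 1).hom x) := by
  have h1 := h.comm 0
  rw [Homotopy.dNext_zero_chainComplex, Homotopy.prevD_chainComplex, zero_add] at h1
  have h2 := LinearMap.congr_fun (congrArg ModuleCat.Hom.hom h1) x
  rw [add_comm]
  exact h2

theorem hom_succ_pt {A B : ChainComplex (ModuleCat.{0} S) ℕ} {f : A ⟶ B} {g : B ⟶ A}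
    (h : Homotopy (f ≫ g) (𝟙 A)) (i : ℕ) (x : A.X (i + 1)) :
    (g.f (i + 1)).hom ((f.f (i + 1)).hom x) =
      x + (A.d (i + 2) (i + 1)).hom ((h.hom (i + 1) (i + 2)).hom x) +
        (h.hom i (i + 1)).hom ((A.d (i + 1) i).hom x) := by
  have h1 := h.comm (i + 1)
  rw [Homotopy.dNext_succ_chainComplex, Homotopy.prevD_chainComplex] at h1
  have h2 := LinearMap.congr_fun (congrArg ModuleCat.Hom.hom h1) x
  refine h2.trans ?_
  change (h.hom i (i + 1)).hom ((A.d (i + 1) i).hom x) +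
    (A.d (i + 2) (i + 1)).hom ((h.hom (i + 1) (i + 2)).hom x) + x = _
  abel

theorem hom_last_pt {A B : ChainComplex (ModuleCat.{0} S) ℕ} {f : A ⟶ B} {g : B ⟶ A}
    (h : Homotopy (f ≫ g) (𝟙 A)) (i : ℕ) (hs : Subsingleton (A.X (i + 2))) (x : A.X (i + 1)) :
    (g.f (i + 1)).hom ((f.f (i + 1)).hom x) =
      x + (h.hom i (i + 1)).hom ((A.d (i + 1) i).hom x) := by
  rw [hom_succ_pt h i x, Subsingleton.elim ((h.hom (i + 1) (i + 2)).hom x) 0, map_zero, add_zero]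

variable {D0 D1 D2 : Type} [AddCommGroup D0] [AddCommGroup D1]
    [AddCommGroup D2] [Module S D0] [Module S D1] [Module S D2]

variable (S D0 D1 D2) in
/-- the modules -/
def tX : ℕ → ModuleCat.{0} S
  | 0 => ModuleCat.of S D0
  | 1 => ModuleCat.of S D1
  | 2 => ModuleCat.of S D2
  | _ + 3 => ModuleCat.of S PUnit

/-- the boundary maps -/
noncomputable def tD (q1 : D1 →ₗ[S] D0) (q2 : D2 →ₗ[S] D1) :
    ∀ i, tX S D0 D1 D2 (i + 1) ⟶ tX S D0 D1 D2 i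
  | 0 => ModuleCat.ofHom q1
  | 1 => ModuleCat.ofHom q2
  | _ + 2 => 0

theorem tD_comp (q1 : D1 →ₗ[S] D0) (q2 : D2 →ₗ[S] D1) (h : ∀ x, q1 (q2 x) = 0) :
    ∀ i, tD q1 q2 (i + 1) ≫ tD q1 q2 i = 0
  | 0 => by
    apply ModuleCat.hom_ext
    apply LinearMap.ext
    intro x
    exact h x
  | _ + 1 => by
    change (0 : tX S D0 D1 D2 _ ⟶ tX S D0 D1 D2 _) ≫ _ = 0
    exact Limits.zero_comp

/-- the three-term complex -/
noncomputable def tC (q1 : D1 →ₗ[S] D0) (q2 : D2 →ₗ[S] D1) (h : ∀ x, q1 (q2 x) = 0) :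
    ChainComplex (ModuleCat.{0} S) ℕ :=
  ChainComplex.of (tX S D0 D1 D2) (tD q1 q2) (tD_comp q1 q2 h)

variable (q1 : D1 →ₗ[S] D0) (q2 : D2 →ₗ[S] D1) (h : ∀ x, q1 (q2 x) = 0)

theorem tC_d (i : ℕ) : (tC q1 q2 h).d (i + 1) i = tD q1 q2 i :=
  ChainComplex.of_d (tX S D0 D1 D2) (tD q1 q2) i

theorem tC_d10 (u : D1) : ((tC q1 q2 h).d 1 0).hom u = q1 u :=
  LinearMap.congr_fun (congrArg ModuleCat.Hom.hom (tC_d q1 q2 h 0)) u

theorem tC_d21 (u : D2) : ((tC q1 q2 h).d 2 1).hom u = q2 u :=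
  LinearMap.congr_fun (congrArg ModuleCat.Hom.hom (tC_d q1 q2 h 1)) u

theorem tC_sub (i : ℕ) : Subsingleton ((tC q1 q2 h).X (i + 3)) :=
  inferInstanceAs (Subsingleton PUnit)

end General

section Fox

variable {G : Type} [Group G] {D0 D1 D2 : Type} [AddCommGroup D0] [AddCommGroup D1]
    [AddCommGroup D2] [Module (ZG G) D0] [Module (ZG G) D1] [Module (ZG G) D2]
    (q1 : D1 →ₗ[ZG G] D0) (q2 : D2 →ₗ[ZG G] D1) (h : ∀ x, q1 (q2 x) = 0)

/-- a homotopy equivalence with a Fox complex, in terms of linear maps -/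
noncomputable def heOf (P : FinPresentation G) (e : HomotopyEquiv (tC q1 q2 h) (foxCC P)) :
    HE (ZG G) (foxD1 P) (foxD2 P) q1 q2 := by
  let f0 : ZG G →ₗ[ZG G] D0 := (e.inv.f 0).hom
  let f1 : (Fin P.gens → ZG G) →ₗ[ZG G] D1 := (e.inv.f 1).hom
  let f2 : (Fin P.rels → ZG G) →ₗ[ZG G] D2 := (e.inv.f 2).hom
  let g0 : D0 →ₗ[ZG G] ZG G := (e.hom.f 0).hom
  let g1 : D1 →ₗ[ZG G] (Fin P.gens → ZG G) := (e.hom.f 1).hom
  let g2 : D2 →ₗ[ZG G] (Fin P.rels → ZG G) := (e.hom.f 2).hom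
  let k0 : ZG G →ₗ[ZG G] (Fin P.gens → ZG G) := (e.homotopyInvHomId.hom 0 1).hom
  let k1 : (Fin P.gens → ZG G) →ₗ[ZG G] (Fin P.rels → ZG G) := (e.homotopyInvHomId.hom 1 2).hom
  let h0 : D0 →ₗ[ZG G] D1 := (e.homotopyHomInvId.hom 0 1).hom
  let h1 : D1 →ₗ[ZG G] D2 := (e.homotopyHomInvId.hom 1 2).hom
  have a1 : ∀ u, q1 (f1 u) = f0 (foxD1 P u) := by
    intro u
    rw [← fox_d10 P u, ← tC_d10 q1 q2 h]
    exact comm_pt e.inv 0 u
  have a2 : ∀ u, q2 (f2 u) = f1 (foxD2 P u) := by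
    intro u
    rw [← fox_d21 P u, ← tC_d21 q1 q2 h]
    exact comm_pt e.inv 1 u
  have a3 : ∀ u, foxD1 P (g1 u) = g0 (q1 u) := by
    intro u
    rw [← fox_d10 P, ← tC_d10 q1 q2 h]
    exact comm_pt e.hom 0 u
  have a4 : ∀ u, foxD2 P (g2 u) = g1 (q2 u) := by
    intro u
    rw [← fox_d21 P, ← tC_d21 q1 q2 h]
    exact comm_pt e.hom 1 u
  have b0 : ∀ x, g0 (f0 x) = x + foxD1 P (k0 x) := by
    intro x
    rw [← fox_d10 P]
    exact hom_zero_pt e.homotopyInvHomId x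
  have b1 : ∀ x, g1 (f1 x) = x + foxD2 P (k1 x) + k0 (foxD1 P x) := by
    intro x
    rw [← fox_d10 P x, ← fox_d21 P]
    exact hom_succ_pt e.homotopyInvHomId 0 x
  have b2 : ∀ x, g2 (f2 x) = x + k1 (foxD2 P x) := by
    intro x
    rw [← fox_d21 P x]
    exact hom_last_pt e.homotopyInvHomId 1 (fox_subsingleton P 0) x
  have c0 : ∀ x, f0 (g0 x) = x + q1 (h0 x) := by
    intro x
    rw [← tC_d10 q1 q2 h]
    exact hom_zero_pt e.homotopyHomInvId x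
  have c1 : ∀ x, f1 (g1 x) = x + q2 (h1 x) + h0 (q1 x) := by
    intro x
    rw [← tC_d10 q1 q2 h, ← tC_d21 q1 q2 h]
    exact hom_succ_pt e.homotopyHomInvId 0 x
  have c2 : ∀ x, f2 (g2 x) = x + h1 (q2 x) := by
    intro x
    rw [← tC_d21 q1 q2 h]
    exact hom_last_pt e.homotopyHomInvId 1 (tC_sub q1 q2 h 0) x
  exact ⟨f0, f1, f2, g0, g1, g2, k0, k1, h0, h1, LinearMap.ext a1, LinearMap.ext a2,
    LinearMap.ext a3, LinearMap.ext a4, LinearMap.ext b0, LinearMap.ext b1, LinearMap.ext b2,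
    LinearMap.ext c0, LinearMap.ext c1, LinearMap.ext c2⟩

theorem tC_isD2 [Module.Free (ZG G) D0] [Module.Free (ZG G) D1] [Module.Free (ZG G) D2]
    [Module.Finite (ZG G) D0] [Module.Finite (ZG G) D1] [Module.Finite (ZG G) D2]
    (hε : ∃ ε : D0 →+ ℤ, Function.Surjective ε ∧ (∀ (g : G) x, ε (elt g • x) = ε x) ∧
      ∀ x, ε x = 0 ↔ ∃ y, q1 y = x) (hex : ∀ x, q1 x = 0 → ∃ y, q2 y = x) :
    IsD2Complex (G := G) (tC q1 q2 h) := by
  apply D2Data.isD2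
  refine
  { free := ?_
    finite := ?_
    bounded := ⟨2, fun i hi => ?_⟩
    homology_zero := ?_
    homology_one := ?_
    homology_high := ?_
    cohomology_three := ?_ }
  · rintro (_ | _ | _ | i)
    · exact inferInstanceAs (Module.Free (ZG G) D0)
    · exact inferInstanceAs (Module.Free (ZG G) D1)
    · exact inferInstanceAs (Module.Free (ZG G) D2)
    · exact inferInstanceAs (Module.Free (ZG G) PUnit)
  · rintro (_ | _ | _ | i)
    · exact inferInstanceAs (Module.Finite (ZG G) D0)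
    · exact inferInstanceAs (Module.Finite (ZG G) D1)
    · exact inferInstanceAs (Module.Finite (ZG G) D2)
    · exact inferInstanceAs (Module.Finite (ZG G) PUnit)
  · obtain ⟨j, rfl⟩ : ∃ j, i = j + 3 := ⟨i - 3, by omega⟩
    exact tC_sub q1 q2 h j
  · obtain ⟨ε, h1, h2, h3⟩ := hε
    refine ⟨ε, h1, h2, fun x => (h3 x).trans ?_⟩
    constructor
    · rintro ⟨y, hy⟩
      exact ⟨y, (tC_d10 q1 q2 h y).trans hy⟩
    · rintro ⟨y, hy⟩
      exact ⟨y, (tC_d10 q1 q2 h y).symm.trans hy⟩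
  · refine (exactAt_succ_iff _ 0).2 fun x hx => ?_
    obtain ⟨y, hy⟩ := hex x ((tC_d10 q1 q2 h x).symm.trans hx)
    exact ⟨y, (tC_d21 q1 q2 h y).trans hy⟩
  · intro i hi
    obtain ⟨j, rfl⟩ : ∃ j, i = (j + 2) + 1 := ⟨i - 3, by omega⟩
    refine (exactAt_succ_iff _ (j + 2)).2 fun x _ => ⟨0, ?_⟩
    have := tC_sub q1 q2 h j
    exact Subsingleton.elim _ _
  · intro M _ _ _ φ _
    refine ⟨0, fun x => ?_⟩
    have := tC_sub q1 q2 h 0
    rw [Subsingleton.elim x 0, map_zero]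
    rfl

end Fox

end Vale.Agent.P246.H675
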