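import Vale.Agent.P246.R3.H675.Red
import Vale.Agent.P246.R3.H675.Three
import Vale.Agent.P246.R3.H808.Pres
import Vale.Agent.P246.R3.H320.Grp

/-! # P246.FreeFactor: the D(2) property descends along `G * F_n → G` -/

namespace Vale.Agent.P246.H675

open CategoryTheory Function Vale.Agent.P246 Vale.Agent.P246.H816 Vale.Agent.P246.H429

section

variable {S R : Type} [Ring S] [Ring R]

theorem bc_single (φ : S →+* R) {a : ℕ} {Y Y' : Type} [AddCommGroup Y] [Module S Y]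
    [AddCommGroup Y'] [Module R Y'] (B : BC φ Y Y') (M : (Fin a → S) →ₗ[S] Y) (i : Fin a) :
    bc (BC.pi φ a) B M (Pi.single i 1) = B.th (M (Pi.single i 1)) := by
  have h : bc (BC.pi φ a) B M (Pi.basisFun R (Fin a) i) = B.th (M (Pi.basisFun S (Fin a) i)) :=
    bc_b (BC.pi φ a) B M i
  rwa [Pi.basisFun_apply, Pi.basisFun_apply] at h

theorem pi_ext' {a : ℕ} {Y' : Type} [AddCommGroup Y'] [Module R Y']
    {M N : (Fin a → R) →ₗ[R] Y'} (h : ∀ i, M (Pi.single i 1) = N (Pi.single i 1)) : M = N := by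
  refine (Pi.basisFun R (Fin a)).ext fun i => ?_
  rw [Pi.basisFun_apply]
  exact h i

theorem up_single (φ : S →+* R) {a b : ℕ} (M : (Fin a → S) →ₗ[S] (Fin b → S)) (i : Fin a) :
    H816.up φ M (Pi.single i 1) = fun k => φ (M (Pi.single i 1) k) := by
  rw [H816.up, Fintype.linearCombination_apply_single, one_smul]

theorem up_eq_bc (φ : S →+* R) {a b : ℕ} (M : (Fin a → S) →ₗ[S] (Fin b → S)) :
    H816.up φ M = bc (BC.pi φ a) (BC.pi φ b) M := by
  refine pi_ext' fun i => ?_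
  rw [bc_single, up_single]
  rfl

theorem up_up_zero (φ : S →+* R) {a b c : ℕ} (M : (Fin a → S) →ₗ[S] (Fin b → S))
    (N : (Fin c → S) →ₗ[S] (Fin a → S)) (h : ∀ x, M (N x) = 0) (x : Fin c → R) :
    H816.up φ M (H816.up φ N x) = 0 := by
  rw [up_eq_bc, up_eq_bc]
  have h1 := bc_comp (BC.pi φ c) (BC.pi φ a) (BC.pi φ b) N M
  have h2 : M ∘ₗ N = 0 := LinearMap.ext h
  rw [h2] at h1
  have h3 : bc (BC.pi φ c) (BC.pi φ b) (0 : (Fin c → S) →ₗ[S] (Fin b → S)) = 0 := by
    refine bc_ext (BC.pi φ c) fun i => ?_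
    rw [bc_th, LinearMap.zero_apply, map_zero, LinearMap.zero_apply]
  rw [h3] at h1
  exact (LinearMap.congr_fun h1 x).symm

end

variable {G H : Type} [Group G] [Group H] {n : ℕ} (F : FF G H n)

include F

theorem rh_rh (r : ZG G) : rh F.ρ (rh F.ι r) = r := by
  induction r using MonoidAlgebra.induction_linear with
  | zero => simp
  | add s t hs ht => rw [map_add, map_add, hs, ht]
  | single g z => rw [rh_single, rh_single, F.ρι]

theorem rh_elt' (h : H) : rh F.ρ (elt h) = elt (F.ρ h) := rh_single _ _ _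

omit F in
theorem elt_one' : (elt (1 : G) : ZG G) = 1 := rfl

theorem bc_up {a b : ℕ} (M : (Fin a → ZG G) →ₗ[ZG G] (Fin b → ZG G)) :
    bc (BC.pi (rh F.ρ) a) (BC.pi (rh F.ρ) b) (H816.up (rh F.ι) M) = M := by
  refine pi_ext' fun i => ?_
  rw [bc_single, up_single]
  ext1 k
  exact rh_rh F _

theorem up_th {a b : ℕ} (M : (Fin a → ZG G) →ₗ[ZG G] (Fin b → ZG G)) (x : Fin a → ZG H) :
    (BC.pi (rh F.ρ) b).th (H816.up (rh F.ι) M x) = M ((BC.pi (rh F.ρ) a).th x) := by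
  rw [← bc_th (BC.pi (rh F.ρ) a) (BC.pi (rh F.ρ) b), bc_up]

/-- **the descent** -/
theorem descend (hH : AlgebraicD2Property H) : AlgebraicD2Property G := by
  intro C0 hC0
  let C : ChainComplex (ModuleCat.{0} (ZG G)) ℕ := C0
  have hC : D2Data G C := IsD2Complex.data C hC0
  obtain ⟨r⟩ := exists_reduced C hC
  obtain ⟨ε0, hε1, hε2, hε3⟩ := hC.homology_zero
  let ε : (Fin r.b → ZG G) →+ ℤ := ε0.comp r.e0.toLinearMap.toAddMonoidHom
  have hεe : ∀ x, ε x = ε0 (r.e0 x) := fun x => rfl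
  have hg : ∀ (g : G) x, ε (elt g • x) = ε x := by
    intro g x
    rw [hεe, hεe, map_smul, hε2]
  have hε : ∀ x, ε x = 0 ↔ ∃ y, r.d1 y = x := by
    intro x
    rw [hεe]
    refine (hε3 _).trans ?_
    constructor
    · rintro ⟨y, hy⟩
      refine ⟨r.e1.symm (y, 0), ?_⟩
      apply r.e0.injective
      rw [r.e0_d1, LinearEquiv.apply_symm_apply]
      exact hy
    · rintro ⟨y, rfl⟩
      exact ⟨(r.e1 y).1, (r.e0_d1 y).symm⟩
  obtain ⟨x1, hx1⟩ := hε1 1
  obtain ⟨c0, hc⟩ : ∃ c0, ε c0 = 1 :=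
    ⟨r.e0.symm x1, by rw [hεe, LinearEquiv.apply_symm_apply, hx1]⟩
  have hex := r.exact hC
  let q1 := bd1 F r.d1 c0
  let q2 : (Fin r.c → ZG H) →ₗ[ZG H] ((Fin r.a → ZG H) × (Fin n → ZG H)) :=
    (LinearMap.inl (ZG H) (Fin r.a → ZG H) (Fin n → ZG H)) ∘ₗ H816.up (rh F.ι) r.d2
  have h12 : ∀ x, q1 (q2 x) = 0 := by
    intro x
    change bd1 F r.d1 c0 (H816.up (rh F.ι) r.d2 x, 0) = 0
    rw [bd1, LinearMap.coprod_apply, map_zero, add_zero]
    exact up_up_zero _ _ _ r.d1_d2 x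
  have hexH : ∀ x, q1 x = 0 → ∃ y, q2 y = x := by
    rintro ⟨u, w⟩ h
    obtain ⟨hw, x, hx⟩ := bd1_exact F r.d1 r.d2 hex ε hg (fun y => (hε _).2 ⟨y, rfl⟩) c0 hc u w h
    refine ⟨x, ?_⟩
    rw [hw]
    exact Prod.ext hx rfl
  obtain ⟨ε', hs', hg', hk', hm'⟩ := bd1_coker F r.d1 ε hg hε c0 hc
  obtain ⟨P, ⟨e⟩⟩ := hH (tC q1 q2 h12) (tC_isD2 q1 q2 h12 ⟨ε', hs', hg', hk'⟩ hexH)
  let E := heOf q1 q2 h12 P e
  have hw := fun j => P.surj (F.t j)
  choose w hw using hw
  have hsurj : Surjective F.ρ := fun g => ⟨F.ι g, F.ρι g⟩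
  obtain ⟨hs, hk, hQ1, hQ2⟩ := H808.row G H F.ρ n F.t hsurj F.ker P w hw
  set Q : FinPresentation G := ⟨P.gens, P.rels + n, fun i => F.ρ (P.x i), Fin.append P.r w, hs, hk⟩
    with hQdef
  -- base change
  let φ := rh F.ρ
  let A0 := BC.one φ
  let A1 := BC.pi φ P.gens
  let A2 := BC.pi φ P.rels
  let B0 := BC.pi φ r.b
  let B1 := (BC.pi φ r.a).prod (BC.pi φ n)
  let B2 := BC.pi φ r.c
  have e1 : bc A1 A0 (foxD1 P) = foxD1 Q := by
    refine bc_ext A1 fun i => ?_
    rw [bc_th]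
    exact (hQ1 _).symm
  have e2 : bc B1 B0 q1 = r.d1 ∘ₗ LinearMap.fst (ZG G) (Fin r.a → ZG G) (Fin n → ZG G) := by
    refine bc_ext B1 fun i => ?_
    rw [bc_th]
    obtain ⟨⟨u, w⟩, huw⟩ : ∃ y, y = B1.b i := ⟨_, rfl⟩
    rw [← huw]
    change B0.th (bd1 F r.d1 c0 (u, w)) = r.d1 ((BC.pi φ r.a).th u)
    rw [← up_th, bd1, LinearMap.coprod_apply, map_add]
    have h0 : B0.th ((Fintype.linearCombination (ZG H) fun j =>
        (elt (F.t j) - 1) • fun k => rh F.ι (c0 k)) w) = 0 := by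
      ext1 k
      change rh F.ρ ((Fintype.linearCombination (ZG H) fun j =>
        (elt (F.t j) - 1) • fun k => rh F.ι (c0 k)) w k) = 0
      rw [Fintype.linearCombination_apply, Finset.sum_apply, map_sum]
      refine Finset.sum_eq_zero fun j _ => ?_
      rw [Pi.smul_apply, Pi.smul_apply, smul_eq_mul, smul_eq_mul, map_mul, map_mul, map_sub,
        rh_elt', F.ρt, elt_one', map_one, sub_self, zero_mul, mul_zero]
    rw [h0, add_zero]
  have e3 : bc B2 B1 q2 =
      (LinearMap.inl (ZG G) (Fin r.a → ZG G) (Fin n → ZG G)) ∘ₗ r.d2 := by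
    refine bc_ext B2 fun i => ?_
    rw [bc_th]
    change ((BC.pi φ r.a).th (H816.up (rh F.ι) r.d2 (B2.b i)), (BC.pi φ n).th 0) = _
    rw [up_th, map_zero]
    rfl
  obtain ⟨E', hE'⟩ : ∃ E' : HE (ZG G) (foxD1 Q) (bc A2 A1 (foxD2 P))
      (r.d1 ∘ₗ LinearMap.fst (ZG G) (Fin r.a → ZG G) (Fin n → ZG G))
      ((LinearMap.inl (ZG G) (Fin r.a → ZG G) (Fin n → ZG G)) ∘ₗ r.d2),
      E'.f1 = bc A1 B1 E.f1 := by
    rw [← e1, ← e2, ← e3]
    exact ⟨E.bc A0 A1 A2 B0 B1 B2, rfl⟩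
  -- the classes of the words
  let δS : Fin n → (Fin P.gens → ZG H) := fun j => foxWord P.x (w j).toWord
  have hδS : ∀ j, foxD1 P (δS j) = elt (F.t j) - 1 := by
    intro j
    have := foxWord_formula P.x (w j).toWord
    rw [FreeGroup.mk_toWord, hw] at this
    exact this
  have hδ : ∀ j, foxD1 Q (A1.th (δS j)) = 0 := by
    intro j
    have h1 : foxD1 Q (A1.th (δS j)) = rh F.ρ (foxD1 P (δS j)) := hQ1 (δS j)
    rw [h1, hδS, map_sub, rh_elt', F.ρt, elt_one', map_one, sub_self]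
  -- the sign
  let C1 : Fin r.b → ZG H := fun k => rh F.ι (c0 k)
  have hC1 : ε' C1 = 1 := by
    have h1 := hm' 1 c0
    rw [one_smul, hc] at h1
    refine h1.trans ?_
    have : aug H (1 : ZG H) = 1 := aug_single 1 1
    rw [this, one_mul]
  let v : Fin r.b → ZG H := E.f0 1
  have hf0 : ∀ x, E.f0 x = x • v := by
    intro x
    change E.f0 x = x • E.f0 1
    rw [← map_smul, smul_eq_mul, mul_one]
  have hss : ε' v * ε' v = 1 := by
    have h1 := congrArg ε' (LinearMap.congr_fun E.eH0 C1)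
    have h2 : ε' (E.f0 (E.g0 C1)) = ε' (C1 + q1 (E.h0 C1)) := h1
    rw [map_add, hC1, (hk' _).2 ⟨_, rfl⟩, add_zero, hf0, eps_lin ε' hg'] at h2
    have h3 : IsUnit (ε' v) := IsUnit.of_mul_eq_one _ (by rw [mul_comm]; exact h2)
    rcases Int.isUnit_iff.1 h3 with h4 | h4 <;> rw [h4] <;> norm_num
  obtain ⟨y0, hy0⟩ : ∃ y, q1 y = v - ε' v • C1 := by
    refine (hk' _).1 ?_
    rw [map_sub, map_zsmul, hC1]
    simp
  have hz : ∀ j, ∃ z : Fin r.c → ZG H, E.f1 (δS j) =
      (H816.up (rh F.ι) r.d2 z, 0) + (0, ε' v • Pi.single j 1) + (elt (F.t j) - 1) • y0 := by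
    intro j
    have h1 : q1 (E.f1 (δS j) - (0, ε' v • Pi.single j 1) - (elt (F.t j) - 1) • y0) = 0 := by
      have h2 : q1 (E.f1 (δS j)) = E.f0 (foxD1 P (δS j)) := LinearMap.congr_fun E.fc1 _
      have h3 : q1 (0, ε' v • Pi.single j 1) = ε' v • (elt (F.t j) - 1) • C1 := by
        have h4 : ((0, ε' v • Pi.single j 1) : (Fin r.a → ZG H) × (Fin n → ZG H)) =
            ε' v • (0, Pi.single j 1) := by
          rw [Prod.smul_mk, smul_zero]
        rw [h4, map_zsmul]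
        congr 1
        change bd1 F r.d1 c0 (0, Pi.single j 1) = _
        rw [bd1, LinearMap.coprod_apply, map_zero, zero_add,
          Fintype.linearCombination_apply_single, one_smul]
      rw [map_sub, map_sub, h2, h3, map_smul, hy0, hδS, hf0, smul_sub,
        smul_comm (elt (F.t j) - 1) (ε' v) C1]
      abel
    obtain ⟨y, hy⟩ := hexH _ h1
    refine ⟨y, ?_⟩
    have h5 : q2 y = (H816.up (rh F.ι) r.d2 y, 0) := rfl
    rw [← h5, hy]
    abel
  choose z hz using hz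
  have hz2 : ∀ j, E'.f1 (A1.th (δS j)) = (r.d2 (B2.th (z j)), ε' v • Pi.single j 1) := by
    intro j
    rw [hE', bc_th, hz, map_add, map_add, B1.th_smul]
    have h1 : φ (elt (F.t j) - 1) = 0 := by
      change rh F.ρ (elt (F.t j) - 1) = 0
      rw [map_sub, rh_elt', F.ρt, elt_one', map_one, sub_self]
    rw [h1, zero_smul, add_zero]
    have h2 : B1.th (H816.up (rh F.ι) r.d2 (z j), 0) = (r.d2 (B2.th (z j)), 0) := by
      change ((BC.pi φ r.a).th (H816.up (rh F.ι) r.d2 (z j)), (BC.pi φ n).th 0) = _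
      rw [up_th, map_zero]
    have h3 : B1.th (0, ε' v • Pi.single j 1) = (0, ε' v • Pi.single j 1) := by
      change ((BC.pi φ r.a).th 0, (BC.pi φ n).th (ε' v • Pi.single j 1)) = _
      rw [map_zero, map_zsmul]
      congr 2
      ext1 k
      change rh F.ρ ((Pi.single j (1 : ZG H) : Fin n → ZG H) k) = _
      by_cases hk : k = j
      · subst hk; simp
      · simp [Pi.single_eq_of_ne hk]
    rw [h2, h3, Prod.mk_add_mk, add_zero, zero_add]
  have q := cone (foxD1 Q) (bc A2 A1 (foxD2 P)) r.d1 r.d2 E' hex (fun j => A1.th (δS j)) hδ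
    (fun j => B2.th (z j)) (ε' v) hss hz2
  have hfin := r.finish hC Q P.rels n rfl _ (addEquiv (ZG G) P.rels n) (fun t => ?_) q
  · exact ⟨Q, hfin⟩
  · obtain ⟨⟨x, l⟩, rfl⟩ := (addEquiv (ZG G) P.rels n).symm.surjective t
    rw [LinearEquiv.apply_symm_apply, LinearMap.coprod_apply]
    have h1 : (addEquiv (ZG G) P.rels n).symm (x, l) =
        Fin.append (fun i => rh F.ρ (rh F.ι (x i))) l := by
      simp only [rh_rh]
      rw [LinearEquiv.symm_apply_eq]
      apply Prod.ext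
      · ext1 i
        exact (Fin.append_left x l i).symm
      · ext1 i
        exact (Fin.append_right x l i).symm
    have h2 : bc A2 A1 (foxD2 P) x = A1.th (foxD2 P fun i => rh F.ι (x i)) := by
      have h3 := bc_th A2 A1 (foxD2 P) (fun i => rh F.ι (x i))
      have h4 : A2.th (fun i => rh F.ι (x i)) = x := by
        ext1 i
        exact rh_rh F _
      rw [h4] at h3
      exact h3
    rw [h1, h2]
    refine (hQ2 _ _).trans ?_
    ext1 k
    have h5 : (Fintype.linearCombination (ZG G) fun j => A1.th (δS j)) l k =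
        ∑ j, l j * rh F.ρ (foxWord P.x (w j).toWord k) := by
      rw [Fintype.linearCombination_apply, Finset.sum_apply]
      rfl
    rw [Pi.add_apply]
    change _ = A1.th (foxD2 P fun i => rh F.ι (x i)) k +
      (Fintype.linearCombination (ZG G) fun j => A1.th (δS j)) l k
    rw [h5]
    rfl

omit F in
/-- **P246.FreeFactor**, algebraic form -/
theorem freeFactor (G : Type) [Group G] (n : ℕ)
    (h : AlgebraicD2Property (Monoid.Coprod G (FreeGroup (Fin n)))) : AlgebraicD2Property G := by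
  obtain ⟨F⟩ := H320.row G n
  exact descend F h

end Vale.Agent.P246.H675
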