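import Vale.Agent.P246.R3.H675.Cone
import Vale.Agent.P246.R2.H429.SF

/-! # P246.FreeFactor: reduction to three free terms, and back -/

namespace Vale.Agent.P246.H675

open CategoryTheory Function Vale.Agent.P246 Vale.Agent.P246.H816 Vale.Agent.P246.H429

variable {G : Type} [Group G]

theorem exists_fin (M : Type) [AddCommGroup M] [Module (ZG G) M] [Module.Free (ZG G) M]
    [Module.Finite (ZG G) M] : ∃ k : ℕ, Nonempty (M ≃ₗ[ZG G] (Fin k → ZG G)) := by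
  let b := Module.Free.chooseBasis (ZG G) M
  exact ⟨Fintype.card (Module.Free.ChooseBasisIndex (ZG G) M),
    ⟨b.equivFun.trans (LinearEquiv.funCongrLeft (ZG G) (ZG G)
      (Fintype.equivFin _).symm)⟩⟩

/-- the reduced form of a D(2) complex -/
structure Reduced (C : ChainComplex (ModuleCat.{0} (ZG G)) ℕ) where
  ψ : C.X 2 →ₗ[ZG G] LinearMap.range (C.d 3 2).hom
  hψ : ∀ x : LinearMap.range (C.d 3 2).hom, ψ x.1 = x
  a : ℕ
  b : ℕ
  c : ℕ
  m : ℕ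
  e0 : (Fin b → ZG G) ≃ₗ[ZG G] C.X 0
  e1 : (Fin a → ZG G) ≃ₗ[ZG G] (C.X 1 × (Fin m → ZG G))
  e2 : (Fin c → ZG G) ≃ₗ[ZG G] (LinearMap.ker ψ × (Fin m → ZG G))

theorem exists_reduced (C : ChainComplex (ModuleCat.{0} (ZG G)) ℕ) (hC : D2Data G C) :
    Nonempty (Reduced C) := by
  have hfree := hC.free
  have hfin := hC.finite
  have hc : ∀ i, ∃ k : ℕ, Nonempty (C.X i ≃ₗ[ZG G] (Fin k → ZG G)) := fun i => exists_fin (C.X i)
  choose c hc' using hc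
  obtain ⟨ψ, hψ⟩ := hC.cohomology_three (LinearMap.range (C.d 3 2).hom)
    (C.d 3 2).hom.rangeRestrict (by
      intro x
      apply Subtype.ext
      exact dd_zero C 4 3 2 x)
  have hψ' : ∀ x : LinearMap.range (C.d 3 2).hom, ψ x.1 = x := by
    rintro ⟨_, ⟨x, rfl⟩⟩
    exact (hψ x).symm
  have hprojX2 : Module.Projective (ZG G) (C.X 2) := inferInstance
  have hproj : Module.Projective (ZG G) (LinearMap.range (C.d 3 2).hom) := by
    refine Module.Projective.of_split (LinearMap.range (C.d 3 2).hom).subtype ψ ?_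
    ext x
    exact congrArg Subtype.val (hψ' x)
  obtain ⟨N, hN⟩ := hC.bounded
  have hB : SFr (ZG G) (LinearMap.range (C.d 3 2).hom)
      (∑ i ∈ Finset.range N, (-1 : ℤ) ^ i * c (i + 1 + 2)) := by
    refine SFr.range N (fun i => C.X (i + 2)) (fun i => c (i + 2)) (fun i => hc' (i + 2))
      (fun i => (C.d (i + 3) (i + 2)).hom) (fun i hi => hN (i + 2) (by omega)) ?_ hproj
    intro i
    ext x
    rw [LinearMap.mem_ker, LinearMap.mem_range]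
    constructor
    · intro hx
      exact (exactAt_succ_iff C (i + 2)).1 (hC.homology_high (i + 3) (by omega)) x hx
    · rintro ⟨y, rfl⟩
      exact dd_zero C _ _ _ y
  have hX2 : SFr (ZG G) (C.X 2) (c 2) := by
    obtain ⟨e⟩ := hc' 2
    exact (SFr.free (R := ZG G) (c 2)).of_equiv e.symm
  obtain ⟨m, c2, ⟨f⟩, -⟩ := SFr.ker hX2 hB ψ (fun y => ⟨y.1, hψ' y⟩)
  obtain ⟨f0⟩ := hc' 0
  obtain ⟨f1⟩ := hc' 1
  exact ⟨⟨ψ, hψ', c 1 + m, c 0, c2, m, f0.symm,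
    (addEquiv (ZG G) (c 1) m).trans (LinearEquiv.prodCongr f1.symm (LinearEquiv.refl (ZG G) _)),
    f.symm⟩⟩

variable {C : ChainComplex (ModuleCat.{0} (ZG G)) ℕ} (r : Reduced C)

/-- the first boundary map of the reduced complex -/
noncomputable def Reduced.d1 : (Fin r.a → ZG G) →ₗ[ZG G] (Fin r.b → ZG G) :=
  r.e0.symm.toLinearMap ∘ₗ (C.d 1 0).hom ∘ₗ (LinearMap.fst (ZG G) (C.X 1) (Fin r.m → ZG G)) ∘ₗ
    r.e1.toLinearMap

/-- the second boundary map of the reduced complex -/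
noncomputable def Reduced.d2 : (Fin r.c → ZG G) →ₗ[ZG G] (Fin r.a → ZG G) :=
  r.e1.symm.toLinearMap ∘ₗ (LinearMap.prodMap
    ((C.d 2 1).hom ∘ₗ (LinearMap.ker r.ψ).subtype) LinearMap.id) ∘ₗ r.e2.toLinearMap

theorem Reduced.e0_d1 (u : Fin r.a → ZG G) : r.e0 (r.d1 u) = (C.d 1 0).hom (r.e1 u).1 :=
  r.e0.apply_symm_apply _

theorem Reduced.e1_d2 (t : Fin r.c → ZG G) :
    r.e1 (r.d2 t) = ((C.d 2 1).hom ((r.e2 t).1 : C.X 2), (r.e2 t).2) :=
  r.e1.apply_symm_apply _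

theorem Reduced.d1_d2 (t : Fin r.c → ZG G) : r.d1 (r.d2 t) = 0 := by
  apply r.e0.injective
  rw [r.e0_d1, r.e1_d2, map_zero]
  exact dd_zero C 2 1 0 _

theorem Reduced.exact (hC : D2Data G C) (v : Fin r.a → ZG G) (hv : r.d1 v = 0) :
    ∃ t, r.d2 t = v := by
  have h1 : (C.d 1 0).hom (r.e1 v).1 = 0 := by rw [← r.e0_d1, hv, map_zero]
  obtain ⟨x, hx⟩ := (exactAt_succ_iff C 0).1 hC.homology_one _ h1
  have hq : x - (r.ψ x : C.X 2) ∈ LinearMap.ker r.ψ := by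
    rw [LinearMap.mem_ker, map_sub, r.hψ, sub_self]
  have hx2 : (C.d 2 1).hom (x - (r.ψ x : C.X 2)) = (r.e1 v).1 := by
    rw [map_sub]
    obtain ⟨w, hw⟩ := (r.ψ x).2
    rw [← hw]
    have h0 : (C.d 2 1).hom ((C.d 3 2).hom w) = 0 := dd_zero C 3 2 1 w
    rw [h0, sub_zero]
    exact hx
  refine ⟨r.e2.symm (⟨_, hq⟩, (r.e1 v).2), ?_⟩
  apply r.e1.injective
  rw [r.e1_d2, LinearEquiv.apply_symm_apply]
  exact Prod.ext hx2 rfl

/-- **the end**: a quasi-isomorphism from the complex of a presentation to the reduced complex -/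
theorem Reduced.finish (hC : D2Data G C) (Q : FinPresentation G) (g n : ℕ)
    (hQ : Q.rels = g + n)
    (p2 : ((Fin g → ZG G) × (Fin n → ZG G)) →ₗ[ZG G] (Fin Q.gens → ZG G))
    (sp : (Fin Q.rels → ZG G) ≃ₗ[ZG G] ((Fin g → ZG G) × (Fin n → ZG G)))
    (hp : ∀ t, foxD2 Q t = p2 (sp t))
    (q : QI (ZG G) (foxD1 Q) p2 r.d1 r.d2) :
    Nonempty (HomotopyEquiv C (foxCC Q)) := by
  refine fox_equiv Q C hC.free (r.e0.toLinearMap ∘ₗ q.F0)
    ((LinearMap.fst (ZG G) (C.X 1) (Fin r.m → ZG G)) ∘ₗ r.e1.toLinearMap ∘ₗ q.F1)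
    ((LinearMap.ker r.ψ).subtype ∘ₗ (LinearMap.fst (ZG G) (LinearMap.ker r.ψ)
      (Fin r.m → ZG G)) ∘ₗ r.e2.toLinearMap ∘ₗ q.F2 ∘ₗ sp.toLinearMap) ?_ ?_ ?_ ?_ ?_ ?_ ?_ ?_ ?_
  · intro u
    change (C.d 1 0).hom (r.e1 (q.F1 u)).1 = r.e0 (q.F0 (foxD1 Q u))
    rw [← r.e0_d1, q.c1]
  · intro t
    change (C.d 2 1).hom ((r.e2 (q.F2 (sp t))).1 : C.X 2) = (r.e1 (q.F1 (foxD2 Q t))).1
    rw [hp, ← q.c2, r.e1_d2]
  · rintro x ⟨y, hy⟩
    apply q.i0
    refine ⟨r.e1.symm (y, 0), ?_⟩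
    apply r.e0.injective
    rw [r.e0_d1, LinearEquiv.apply_symm_apply]
    exact hy
  · intro y
    obtain ⟨x, z, h⟩ := q.s0 (r.e0.symm y)
    refine ⟨x, (r.e1 z).1, ?_⟩
    rw [← r.e0_d1]
    change y = r.e0 (q.F0 x) + r.e0 (r.d1 z)
    rw [← map_add, ← h, LinearEquiv.apply_symm_apply]
  · intro x hx
    obtain ⟨z, hz⟩ := q.i1 x hx
    refine ⟨sp.symm z, ?_⟩
    rw [hp, LinearEquiv.apply_symm_apply, hz]
  · exact (exactAt_succ_iff C 0).1 hC.homology_one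
  · rintro t ht ⟨w, hw⟩
    rw [hp] at ht
    have h4 : ((r.e2 (q.F2 (sp t))).1 : C.X 2) ∈ LinearMap.range (C.d 3 2).hom := ⟨w, hw⟩
    have h5 : r.ψ ((r.e2 (q.F2 (sp t))).1 : C.X 2) = 0 := (r.e2 (q.F2 (sp t))).1.2
    have h6 : r.ψ ((r.e2 (q.F2 (sp t))).1 : C.X 2) = ⟨_, h4⟩ := r.hψ ⟨_, h4⟩
    rw [h5] at h6
    have h7 : (r.e2 (q.F2 (sp t))).1 = 0 := Subtype.ext (congrArg Subtype.val h6).symm
    have h8 : (r.e2 (q.F2 (sp t))).2 = 0 := by
      have h9 := r.e1_d2 (q.F2 (sp t))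
      rw [q.c2, ht, map_zero, map_zero] at h9
      exact (congrArg Prod.snd h9).symm
    have h10 : q.F2 (sp t) = 0 := by
      apply r.e2.injective
      rw [map_zero]
      exact Prod.ext h7 h8
    have h11 := q.i2 _ ht h10
    exact (LinearEquiv.map_eq_zero_iff sp).1 h11
  · intro v hv
    obtain ⟨w, hw⟩ := (r.ψ v).2
    have hq : v - (r.ψ v : C.X 2) ∈ LinearMap.ker r.ψ := by
      rw [LinearMap.mem_ker, map_sub, r.hψ, sub_self]
    have hdd : (C.d 2 1).hom ((C.d 3 2).hom w) = 0 := dd_zero C 3 2 1 w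
    have h4 : (C.d 2 1).hom (v - (r.ψ v : C.X 2)) = 0 := by
      rw [map_sub, ← hw, hdd, sub_zero]
      exact hv
    have h5 : r.d2 (r.e2.symm (⟨_, hq⟩, 0)) = 0 := by
      apply r.e1.injective
      rw [r.e1_d2, LinearEquiv.apply_symm_apply, map_zero]
      exact Prod.ext h4 rfl
    obtain ⟨t, ht, ht2⟩ := q.s2 _ h5
    refine ⟨sp.symm t, ?_, w, ?_⟩
    · rw [hp, LinearEquiv.apply_symm_apply, ht]
    · change v = ((r.e2 (q.F2 (sp (sp.symm t)))).1 : C.X 2) + (C.d 3 2).hom w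
      rw [LinearEquiv.apply_symm_apply, ← ht2, LinearEquiv.apply_symm_apply, hw]
      exact (sub_add_cancel v _).symm
  · intro i v hv
    exact (exactAt_succ_iff C (i + 2)).1 (hC.homology_high (i + 3) (by omega)) v hv

end Vale.Agent.P246.H675
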